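import Mathlib
import Crest.Prelude.Def_AsymptoticConvexity

/-! General lemmas on closed finite-codimensional subspaces and asymptotic uniform convexity. -/

set_option autoImplicit false

namespace Crest.Agent.AUC

open Crest.AnalysisR Filter Topology

/-- Bundling a Banach space. -/
abbrev mkB (X : Type) [NormedAddCommGroup X] [NormedSpace ℝ X] [CompleteSpace X] : RealBanach :=
  ⟨X, inferInstance, inferInstance, inferInstance⟩

section General

variable {X : Type*} [NormedAddCommGroup X] [NormedSpace ℝ X]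

/-- closed and of finite codimension -/
def Cof (S : Submodule ℝ X) : Prop := IsClosed (S : Set X) ∧ FiniteDimensional ℝ (X ⧸ S)

theorem cof_ker {Y : Type*} [NormedAddCommGroup Y] [NormedSpace ℝ Y] [FiniteDimensional ℝ Y]
    (T : X →L[ℝ] Y) : Cof (LinearMap.ker (T : X →ₗ[ℝ] Y)) := by
  refine ⟨T.isClosed_ker, ?_⟩
  exact LinearEquiv.finiteDimensional (LinearMap.quotKerEquivRange (T : X →ₗ[ℝ] Y)).symm

/-- a finite family of functionals has a common closed finite-codimensional kernel -/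
theorem exists_cof_of_finset {ι : Type*} (A : Finset ι) (φ : ι → X →L[ℝ] ℝ) :
    ∃ S : Submodule ℝ X, Cof S ∧ ∀ y ∈ S, ∀ i ∈ A, φ i y = 0 := by
  classical
  refine ⟨LinearMap.ker ((ContinuousLinearMap.pi (fun i : A => φ i) : X →L[ℝ] (A → ℝ)) :
    X →ₗ[ℝ] (A → ℝ)), cof_ker _, ?_⟩
  intro y hy i hi
  have := congrFun (LinearMap.mem_ker.1 hy) ⟨i, hi⟩
  simpa using this

theorem Cof.eventually_near {S : Submodule ℝ X} (hS : Cof S) {ι : Type*} {l : Filter ι}
    (d : ι → X) (hd : ∀ φ : X →L[ℝ] ℝ, Tendsto (fun n => φ (d n)) l (𝓝 0)) {ε : ℝ} (hε : 0 < ε) :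
    ∀ᶠ n in l, ∃ y ∈ S, ‖d n - y‖ < ε := by
  have : IsClosed (S : Set X) := hS.1
  have := hS.2
  let b := Module.finBasis ℝ (X ⧸ S)
  let e := b.equivFunL
  have h1 : Tendsto (fun n => e (S.mkQL (d n))) l (𝓝 0) := by
    rw [tendsto_pi_nhds]
    intro i
    exact hd ((ContinuousLinearMap.proj (R := ℝ) (φ := fun _ : Fin (Module.finrank ℝ (X ⧸ S)) => ℝ)
      i).comp ((e : (X ⧸ S) →L[ℝ] (Fin (Module.finrank ℝ (X ⧸ S)) → ℝ)).comp S.mkQL))
  have h2 : Tendsto (fun n => S.mkQL (d n)) l (𝓝 0) := by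
    have := (e.symm.continuous.tendsto 0).comp h1
    simpa [Function.comp_def] using this
  have h3 := (tendsto_zero_iff_norm_tendsto_zero.1 h2).eventually (gt_mem_nhds (half_pos hε))
  filter_upwards [h3] with n hn
  obtain ⟨m, hm, hm'⟩ := Submodule.Quotient.norm_mk_lt (S.mkQL (d n)) (half_pos hε)
  refine ⟨d n - m, ?_, ?_⟩
  · rw [← Submodule.Quotient.eq]
    exact hm.symm
  · simp only [sub_sub_cancel]
    linarith

/-- bounded sequences have two members whose difference is close to `S` -/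
theorem Cof.exists_pair_near {S : Submodule ℝ X} (hS : Cof S) (z : ℕ → X) {C : ℝ}
    (hz : ∀ n, ‖z n‖ ≤ C) {ε : ℝ} (hε : 0 < ε) :
    ∃ i l, i ≠ l ∧ ∃ y ∈ S, ‖z i - z l - y‖ < ε := by
  have : IsClosed (S : Set X) := hS.1
  have := hS.2
  have : ProperSpace (X ⧸ S) := FiniteDimensional.proper ℝ _
  have hb : ∀ n, S.mkQL (z n) ∈ Metric.closedBall (0 : X ⧸ S) C := by
    intro n
    rw [mem_closedBall_zero_iff]
    exact (Submodule.Quotient.norm_mk_le S (z n)).trans (hz n)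
  obtain ⟨q, -, φ, hφ, hq⟩ := (isCompact_closedBall (0 : X ⧸ S) C).tendsto_subseq hb
  obtain ⟨N, hN⟩ := Metric.cauchySeq_iff.1 hq.cauchySeq (ε / 2) (half_pos hε)
  have h1 := hN N le_rfl (N + 1) (Nat.le_succ N)
  refine ⟨φ N, φ (N + 1), (hφ (Nat.lt_succ_self N)).ne, ?_⟩
  simp only [Function.comp] at h1
  rw [dist_eq_norm, ← map_sub] at h1
  obtain ⟨m, hm, hm'⟩ := Submodule.Quotient.norm_mk_lt (S.mkQL (z (φ N) - z (φ (N + 1))))
    (half_pos hε)
  refine ⟨z (φ N) - z (φ (N + 1)) - m, ?_, ?_⟩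
  · rw [← Submodule.Quotient.eq]
    exact hm.symm
  · simp only [sub_sub_cancel]
    linarith

theorem weakly_null_of_sqrt (d : ℕ → X) (K : ℝ)
    (hd : ∀ A : Finset ℕ, ‖∑ n ∈ A, d n‖ ≤ K * Real.sqrt A.card) (φ : X →L[ℝ] ℝ) :
    Tendsto (fun n => φ (d n)) atTop (𝓝 0) := by
  have key : ∀ (ψ : X →L[ℝ] ℝ) (ε : ℝ), 0 < ε → {n | ε ≤ ψ (d n)}.Finite := by
    intro ψ ε hε
    by_contra hinf
    obtain ⟨m, hm⟩ := exists_nat_gt ((‖ψ‖ * K / ε) ^ 2)
    obtain ⟨A, hA, hc⟩ := Set.Infinite.exists_subset_card_eq hinf m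
    have h1 : (m : ℝ) * ε ≤ ψ (∑ n ∈ A, d n) := by
      rw [map_sum, ← hc]
      have := Finset.card_nsmul_le_sum A (fun n => ψ (d n)) ε (fun n hn => hA hn)
      simpa using this
    have h2 : ψ (∑ n ∈ A, d n) ≤ ‖ψ‖ * (K * Real.sqrt m) := by
      refine (le_abs_self _).trans ((ψ.le_opNorm _).trans ?_)
      rw [← hc]
      exact mul_le_mul_of_nonneg_left (hd A) (norm_nonneg _)
    have hm0 : (0 : ℝ) < m := lt_of_le_of_lt (sq_nonneg _) hm
    have hs : 0 < Real.sqrt m := Real.sqrt_pos.2 hm0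
    have h3 : Real.sqrt m * Real.sqrt m = m := Real.mul_self_sqrt hm0.le
    have h4 : Real.sqrt m ≤ ‖ψ‖ * K / ε := by
      rw [le_div_iff₀ hε]
      have : Real.sqrt m * (Real.sqrt m * ε) ≤ Real.sqrt m * (‖ψ‖ * K) := by nlinarith
      exact le_of_mul_le_mul_left this hs
    nlinarith
  rw [← Nat.cofinite_eq_atTop, Metric.tendsto_nhds]
  intro ε hε
  rw [Filter.eventually_cofinite]
  refine ((key φ ε hε).union (key (-φ) ε hε)).subset ?_
  intro n hn
  simp only [Set.mem_ofPred_eq, dist_zero_right, not_lt, Real.norm_eq_abs, le_abs] at hn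
  simpa using hn

theorem not_finiteDimensional_of_sqrt (d : ℕ → X) (K θ : ℝ) (hθ : 0 < θ) (hd' : ∀ n, θ ≤ ‖d n‖)
    (hd : ∀ A : Finset ℕ, ‖∑ n ∈ A, d n‖ ≤ K * Real.sqrt A.card) : ¬ FiniteDimensional ℝ X := by
  intro hfin
  have hS : Cof (⊥ : Submodule ℝ X) := ⟨by simp, inferInstance⟩
  obtain ⟨n, y, hy, hn⟩ := (hS.eventually_near d (weakly_null_of_sqrt d K hd) hθ).exists
  rw [Submodule.mem_bot] at hy
  subst hy
  simp only [sub_zero] at hn
  linarith [hd' n]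

theorem Cof.exists_near_of_sqrt {S : Submodule ℝ X} (hS : Cof S) (d : ℕ → X) (K : ℝ)
    (hd : ∀ A : Finset ℕ, ‖∑ n ∈ A, d n‖ ≤ K * Real.sqrt A.card) {ε : ℝ} (hε : 0 < ε) :
    ∃ n, ∃ y ∈ S, ‖d n - y‖ < ε :=
  (hS.eventually_near d (weakly_null_of_sqrt d K hd) hε).exists

end General

section NoAUC

variable {X : Type} [NormedAddCommGroup X] [NormedSpace ℝ X] [CompleteSpace X]

theorem isCof_iff (F : Set X) : (mkB X).IsCof F ↔ ∃ S : Submodule ℝ X, (S : Set X) = F ∧ Cof S := by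
  constructor
  · rintro ⟨S, rfl, h1, h2⟩
    exact ⟨S, rfl, h1, h2⟩
  · rintro ⟨S, rfl, h1, h2⟩
    exact ⟨S, rfl, h1, h2⟩

theorem Cof.isCof {S : Submodule ℝ X} (hS : Cof S) : (mkB X).IsCof (S : Set X) :=
  (isCof_iff _).2 ⟨S, rfl, hS⟩

theorem not_auc (θ C : ℝ) (hθ : 0 < θ)
    (h : ∀ k : ℕ, ∃ A : ℕ → Set X, (∀ j ≤ k, ∀ p ∈ A j, ‖p‖ ≤ C) ∧ (∃ p ∈ A 0, θ ≤ ‖p‖) ∧
      ∀ j < k, ∀ p ∈ A j, ∀ S : Submodule ℝ X, Cof S → ∀ ε : ℝ, 0 < ε →
        ∃ y ∈ S, θ ≤ ‖y‖ ∧ ∃ p' ∈ A (j + 1), ‖p + y - p'‖ < ε)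
    (N : X → ℝ) (hN : (mkB X).IsEquivNorm N) : ¬ (mkB X).IsAUC N := by
  intro hA
  obtain ⟨hadd, hsm, a, b, ha, hab⟩ := hN
  change ∀ x y : X, N (x + y) ≤ N x + N y at hadd
  change ∀ (a : ℝ) (x : X), N (a • x) = |a| * N x at hsm
  change ∀ x : X, a * ‖x‖ ≤ N x ∧ N x ≤ b * ‖x‖ at hab
  obtain ⟨A0, hA0, ⟨p0, hp0, hp0'⟩, -⟩ := h 0
  have hC : θ ≤ C := hp0'.trans (hA0 0 le_rfl p0 hp0)
  have hCpos : 0 < C := hθ.trans_le hC
  have hb : 0 < b := by
    have h1 := (hab p0).1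
    have h2 := (hab p0).2
    have h3 : 0 < ‖p0‖ := hθ.trans_le hp0'
    by_contra hb
    push Not at hb
    nlinarith
  obtain ⟨c, hc, hcA⟩ := hA (a * θ / (b * C)) (by positivity)
  change ∀ x : X, N x = 1 → ∃ F : Set X, (mkB X).IsCof F ∧
    ∀ y ∈ F, N y = 1 → c ≤ N (x + (a * θ / (b * C)) • y) - 1 at hcA
  obtain ⟨k, hk⟩ := exists_nat_gt (b * C / (a * θ * c / 2))
  obtain ⟨A, hAC, ⟨q0, hq0, hq0'⟩, hstep⟩ := h k
  have main : ∀ j ≤ k, ∃ p ∈ A j, a * θ + j * (a * θ * c / 2) ≤ N p := by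
    intro j
    induction j with
    | zero =>
      intro _
      refine ⟨q0, hq0, ?_⟩
      have := (hab q0).1
      simp only [Nat.cast_zero, zero_mul, add_zero]
      nlinarith
    | succ j ih =>
      intro hj
      obtain ⟨p, hp, hNp⟩ := ih (by omega)
      have hr0 : a * θ ≤ N p := le_trans (le_add_of_nonneg_right (by positivity)) hNp
      have hr : 0 < N p := lt_of_lt_of_le (by positivity) hr0
      have hrC : N p ≤ b * C :=
        (hab p).2.trans (mul_le_mul_of_nonneg_left (hAC j (by omega) p hp) hb.le)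
      obtain ⟨F, hF, hFy⟩ := hcA ((N p)⁻¹ • p) (by
        rw [hsm, abs_of_pos (inv_pos.2 hr), inv_mul_cancel₀ hr.ne'])
      obtain ⟨S, rfl, hS⟩ := (isCof_iff F).1 hF
      obtain ⟨y, hyS, hyθ, p', hp', hpp⟩ := hstep j (by omega) p hp S hS (a * θ * c / (2 * b))
        (by positivity)
      refine ⟨p', hp', ?_⟩
      have hy0 : a * θ ≤ N y := le_trans (mul_le_mul_of_nonneg_left hyθ ha.le) (hab y).1
      have hy : 0 < N y := lt_of_lt_of_le (by positivity) hy0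
      have h1 := hFy ((N y)⁻¹ • y) (S.smul_mem _ hyS) (by
        rw [hsm, abs_of_pos (inv_pos.2 hy), inv_mul_cancel₀ hy.ne'])
      set s : ℝ := a * θ / (b * C) * N p / N y with hs
      have hs0 : 0 < s := by positivity
      have hs1 : s ≤ 1 := by
        rw [hs, div_le_one hy]
        refine le_trans ?_ hy0
        rw [div_mul_eq_mul_div, div_le_iff₀ (by positivity)]
        exact mul_le_mul_of_nonneg_left hrC (by positivity)
      have h2 : (N p)⁻¹ • p + (a * θ / (b * C)) • (N y)⁻¹ • y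
          = (N p)⁻¹ • ((1 - s) • p + s • (p + y)) := by
        rw [hs]
        have : (1 - a * θ / (b * C) * N p / N y) • p + (a * θ / (b * C) * N p / N y) • (p + y)
            = p + (a * θ / (b * C) * N p / N y) • y := by module
        rw [this, smul_add, smul_smul, smul_smul]
        congr 2
        field_simp
      rw [h2, hsm, abs_of_pos (inv_pos.2 hr)] at h1
      have h3 := hadd ((1 - s) • p) (s • (p + y))
      rw [hsm, hsm, abs_of_pos hs0, abs_of_nonneg (by linarith)] at h3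
      have h4 : N p * (1 + c) ≤ N ((1 - s) • p + s • (p + y)) := by
        have : c + 1 ≤ (N p)⁻¹ * N ((1 - s) • p + s • (p + y)) := by linarith
        rw [inv_mul_eq_div, le_div_iff₀ hr] at this
        linarith
      have h5 : N p + N p * c ≤ N (p + y) := by
        have h6 : s * (N p + N p * c) ≤ s * N (p + y) := by
          have : s * (N p * c) ≤ N p * c := mul_le_of_le_one_left (by positivity) hs1
          nlinarith
        exact le_of_mul_le_mul_left h6 hs0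
      have h7 := hadd p' (p + y - p')
      rw [add_sub_cancel] at h7
      have h8 : N (p + y - p') ≤ a * θ * c / 2 := by
        refine (hab _).2.trans ?_
        have := mul_le_mul_of_nonneg_left hpp.le hb.le
        refine this.trans (le_of_eq ?_)
        field_simp
      have h9 : a * θ * c ≤ N p * c := mul_le_mul_of_nonneg_right hr0 hc.le
      push_cast
      linarith
  obtain ⟨p, hp, hNp⟩ := main k le_rfl
  have h1 : N p ≤ b * C := (hab p).2.trans (mul_le_mul_of_nonneg_left (hAC k le_rfl p hp) hb.le)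
  rw [div_lt_iff₀ (by positivity)] at hk
  have : 0 < a * θ := by positivity
  linarith

/-- A version with sequences satisfying a square-root estimate. -/
theorem not_auc_of_sqrt (θ C : ℝ) (hθ : 0 < θ)
    (h : ∀ k : ℕ, ∃ A : ℕ → Set X, (∀ j ≤ k, ∀ p ∈ A j, ‖p‖ ≤ C) ∧ (∃ p ∈ A 0, θ ≤ ‖p‖) ∧
      ∀ j < k, ∀ p ∈ A j, ∃ d : ℕ → X, ∃ K : ℝ, (∀ n, θ ≤ ‖d n‖) ∧ (∀ n, p + d n ∈ A (j + 1)) ∧
        ∀ B : Finset ℕ, ‖∑ n ∈ B, d n‖ ≤ K * Real.sqrt B.card)
    (N : X → ℝ) (hN : (mkB X).IsEquivNorm N) : ¬ (mkB X).IsAUC N := by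
  refine not_auc (θ / 2) C (half_pos hθ) (fun k => ?_) N hN
  obtain ⟨A, h1, ⟨p0, h2, h2'⟩, h3⟩ := h k
  refine ⟨A, h1, ⟨p0, h2, by linarith⟩, ?_⟩
  intro j hj p hp S hS ε hε
  obtain ⟨d, K, hd1, hd2, hd3⟩ := h3 j hj p hp
  obtain ⟨n, y, hy, hn⟩ := hS.exists_near_of_sqrt d K hd3 (lt_min hε (half_pos hθ))
  refine ⟨y, hy, ?_, p + d n, hd2 n, ?_⟩
  · have h4 := (lt_min_iff.1 hn).2
    have h5 : ‖d n‖ ≤ ‖d n - y‖ + ‖y‖ := by simpa using norm_add_le (d n - y) y
    linarith [hd1 n]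
  · have : p + y - (p + d n) = -(d n - y) := by abel
    rw [this, norm_neg]
    exact (lt_min_iff.1 hn).1

end NoAUC

end Crest.Agent.AUC
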