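import Mathlib
import Crest.Agent.AUC.Basic

/-! Abstract test systems and the Hilbert-type midpoint estimate. -/

set_option autoImplicit false

namespace Crest.Agent.AUC

open Crest.AnalysisR Filter Topology

/-- The averaged midpoint estimate. -/
def PropK (X : Type*) [NormedAddCommGroup X] [NormedSpace ℝ X] : Prop :=
  ∀ (x : X) (η : ℝ), 0 < η → ∃ S : Submodule ℝ X, Cof S ∧
    ∀ y ∈ S, Real.sqrt (‖x‖ ^ 2 + ‖y‖ ^ 2 / 4) - η ≤ (‖x + y‖ + ‖x - y‖) / 2

theorem propK_of_lin {X : Type*} [NormedAddCommGroup X] [NormedSpace ℝ X]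
    (h : ∀ (x : X) (η : ℝ), 0 < η → ∃ S : Submodule ℝ X, Cof S ∧
      ∀ y ∈ S, ∀ α κ : ℝ, 0 ≤ α → 0 ≤ κ → α ^ 2 + κ ^ 2 ≤ 1 →
        2 * α * ‖x‖ + κ * ‖y‖ - η ≤ ‖x + y‖ + ‖x - y‖) : PropK X := by
  intro x η hη
  obtain ⟨S, hS, h⟩ := h x η hη
  refine ⟨S, hS, fun y hy => ?_⟩
  set R := Real.sqrt (‖x‖ ^ 2 + ‖y‖ ^ 2 / 4) with hR
  have hR2 : R ^ 2 = ‖x‖ ^ 2 + ‖y‖ ^ 2 / 4 := Real.sq_sqrt (by positivity)
  rcases (Real.sqrt_nonneg (‖x‖ ^ 2 + ‖y‖ ^ 2 / 4)).eq_or_lt with h0 | h0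
  · rw [← hR] at h0
    rw [← h0]
    have := norm_nonneg (x + y)
    have := norm_nonneg (x - y)
    linarith
  · rw [← hR] at h0
    have h1 := h y hy (‖x‖ / R) (‖y‖ / (2 * R)) (by positivity) (by positivity) (by
      rw [div_pow, div_pow, mul_pow]
      field_simp
      linarith)
    have h2 : 2 * (‖x‖ / R) * ‖x‖ + ‖y‖ / (2 * R) * ‖y‖ = 2 * R := by
      field_simp
      linarith
    linarith

/-- the closed span of the coordinate vectors -/
noncomputable abbrev spanSp {τ V : Type} (e : V → lp (fun _ : τ => ℝ) ⊤) : Submodule ℝ (lp (fun _ : τ => ℝ) ⊤) :=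
  (Submodule.span ℝ (Set.range e)).topologicalClosure

theorem vanish_on_spanSp {τ V : Type} (e : V → lp (fun _ : τ => ℝ) ⊤)
    (L : lp (fun _ : τ => ℝ) ⊤ →L[ℝ] ℝ) (hL : ∀ s, L (e s) = 0) (y : spanSp e) : L y = 0 := by
  have : spanSp e ≤ LinearMap.ker (L : lp (fun _ : τ => ℝ) ⊤ →ₗ[ℝ] ℝ) := by
    refine Submodule.topologicalClosure_minimal _ ?_ L.isClosed_ker
    rw [Submodule.span_le]
    rintro _ ⟨s, rfl⟩
    exact hL s
  exact this y.2

theorem abs_apply_le {τ : Type} (x : lp (fun _ : τ => ℝ) ⊤) (f : τ) : |x f| ≤ ‖x‖ :=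
  lp.norm_apply_le_norm ENNReal.top_ne_zero x f

theorem propK_spanSp {τ V : Type} [Nonempty τ] (e : V → lp (fun _ : τ => ℝ) ⊤)
    (hδ : ∀ s, ∃ ψ : lp (fun _ : τ => ℝ) ⊤ →L[ℝ] ℝ, (∀ s', s' ≠ s → ψ (e s') = 0) ∧
      (ψ (e s) = 1 ∨ e s = 0))
    (hcomb : ∀ T0 : Finset V, ∃ T : Finset V, T0 ⊆ T ∧ ∀ (f g : τ) (α κ : ℝ), α ^ 2 + κ ^ 2 ≤ 1 →
      ∃ φp φm : τ, (∀ s ∈ T, e s φp = α * e s f ∧ e s φm = α * e s f) ∧
        ∀ s ∉ T, e s φp - e s φm = κ * e s g) : PropK (spanSp e) := by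
  classical
  choose ψ hψ0 hψ1 using hδ
  refine propK_of_lin fun x η hη => ?_
  have hx : (x : lp (fun _ : τ => ℝ) ⊤) ∈ closure (Submodule.span ℝ (Set.range e) : Set _) := x.2
  obtain ⟨x', hx', hxx⟩ := Metric.mem_closure_iff.1 hx (η / 4) (by positivity)
  obtain ⟨c, rfl⟩ := Finsupp.mem_span_range_iff_exists_finsupp.1 hx'
  obtain ⟨T, hT0, hT⟩ := hcomb c.support
  obtain ⟨S, hS, hSy⟩ := exists_cof_of_finset (X := spanSp e) T
    (fun s => (ψ s).comp (spanSp e).subtypeL)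
  refine ⟨S, hS, fun y hy α κ hα hκ hακ => ?_⟩
  set x' : lp (fun _ : τ => ℝ) ⊤ := c.sum fun i a => a • e i with hx'def
  have hx'app : ∀ f, x' f = ∑ s ∈ c.support, c s * e s f := by
    intro f
    rw [hx'def, Finsupp.sum, lp.coeFn_sum, Finset.sum_apply]
    rfl
  -- the key estimate for arbitrary signs
  have key : ∀ (f g : τ) (α κ : ℝ), α ^ 2 + κ ^ 2 ≤ 1 →
      2 * (α * x' f) + κ * (y : lp (fun _ : τ => ℝ) ⊤) g ≤ ‖x' + y‖ + ‖x' - y‖ := by
    intro f g α κ hακ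
    obtain ⟨φp, φm, h1, h2⟩ := hT f g α κ hακ
    have hp : x' φp = α * x' f := by
      rw [hx'app, hx'app, Finset.mul_sum]
      refine Finset.sum_congr rfl fun s hs => ?_
      rw [(h1 s (hT0 hs)).1]
      ring
    have hm : x' φm = α * x' f := by
      rw [hx'app, hx'app, Finset.mul_sum]
      refine Finset.sum_congr rfl fun s hs => ?_
      rw [(h1 s (hT0 hs)).2]
      ring
    have hL := vanish_on_spanSp e (lp.evalCLM ℝ (fun _ : τ => ℝ) ⊤ φp
      - lp.evalCLM ℝ (fun _ : τ => ℝ) ⊤ φm - κ • lp.evalCLM ℝ (fun _ : τ => ℝ) ⊤ g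
      + ∑ s ∈ T, (κ * e s g) • ψ s) (by
        intro s'
        simp only [add_apply, sub_apply,
          smul_apply, FunLike.coe_sum, Finset.sum_apply,
          smul_eq_mul]
        change e s' φp - e s' φm - κ * e s' g + _ = 0
        by_cases hs' : s' ∈ T
        · rw [Finset.sum_eq_single s' (fun s _ hs => by rw [hψ0 s s' hs.symm, mul_zero])
            (fun h => absurd hs' h), (h1 s' hs').1, (h1 s' hs').2]
          rcases hψ1 s' with h | h
          · rw [h]; ring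
          · rw [h]; simp
        · rw [h2 s' hs', Finset.sum_eq_zero]
          · ring
          · intro s hs
            rw [hψ0 s s' (fun h => hs' (h ▸ hs)), mul_zero]) y
    simp only [add_apply, sub_apply,
      smul_apply, FunLike.coe_sum, Finset.sum_apply,
      smul_eq_mul] at hL
    rw [Finset.sum_eq_zero (fun s hs => by
      have := hSy y hy s hs
      simp only [ContinuousLinearMap.comp_apply, Submodule.subtypeL_apply] at this
      rw [this, mul_zero])] at hL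
    change (y : lp (fun _ : τ => ℝ) ⊤) φp - (y : lp (fun _ : τ => ℝ) ⊤) φm
      - κ * (y : lp (fun _ : τ => ℝ) ⊤) g + 0 = 0 at hL
    have h3 := (le_abs_self _).trans (abs_apply_le (x' + (y : lp (fun _ : τ => ℝ) ⊤)) φp)
    have h4 := (le_abs_self _).trans (abs_apply_le (x' - (y : lp (fun _ : τ => ℝ) ⊤)) φm)
    rw [lp.coeFn_add, Pi.add_apply] at h3
    rw [lp.coeFn_sub, Pi.sub_apply] at h4
    linarith
  have key2 : ∀ (f g : τ), 2 * (α * |x' f|) + κ * |(y : lp (fun _ : τ => ℝ) ⊤) g|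
      ≤ ‖x' + y‖ + ‖x' - y‖ := by
    intro f g
    rcases abs_choice (x' f) with h1 | h1 <;>
    rcases abs_choice ((y : lp (fun _ : τ => ℝ) ⊤) g) with h2 | h2 <;> rw [h1, h2]
    · exact key f g α κ hακ
    · have := key f g α (-κ) (by simpa using hακ)
      linarith
    · have := key f g (-α) κ (by simpa using hακ)
      linarith
    · have := key f g (-α) (-κ) (by simpa using hακ)
      linarith
  have key3 : ∀ g : τ, ‖(2 * α) • x'‖ ≤ ‖x' + y‖ + ‖x' - y‖
      - κ * |(y : lp (fun _ : τ => ℝ) ⊤) g| := by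
    intro g
    refine lp.norm_le_of_forall_le' _ fun f => ?_
    rw [lp.coeFn_smul, Pi.smul_apply, norm_smul, Real.norm_eq_abs, Real.norm_eq_abs,
      abs_of_nonneg (by positivity)]
    linarith [key2 f g]
  have key4 : ‖κ • (y : lp (fun _ : τ => ℝ) ⊤)‖ ≤ ‖x' + y‖ + ‖x' - y‖ - ‖(2 * α) • x'‖ := by
    refine lp.norm_le_of_forall_le' _ fun g => ?_
    rw [lp.coeFn_smul, Pi.smul_apply, norm_smul, Real.norm_eq_abs, Real.norm_eq_abs,
      abs_of_nonneg hκ]
    linarith [key3 g]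
  rw [norm_smul, norm_smul, Real.norm_eq_abs, Real.norm_eq_abs, abs_of_nonneg hκ,
    abs_of_nonneg (by positivity)] at key4
  rw [dist_eq_norm] at hxx
  have hα1 : α ≤ 1 := by nlinarith
  simp only [Submodule.coe_norm, Submodule.coe_add, Submodule.coe_sub]
  generalize (x : lp (fun _ : τ => ℝ) ⊤) = X at *
  generalize (y : lp (fun _ : τ => ℝ) ⊤) = Y at *
  have e1 : ‖x' + Y‖ ≤ ‖X + Y‖ + ‖X - x'‖ := by
    have := norm_sub_le (X + Y) (X - x')
    rwa [show X + Y - (X - x') = x' + Y by abel] at this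
  have e2 : ‖x' - Y‖ ≤ ‖X - Y‖ + ‖X - x'‖ := by
    have := norm_sub_le (X - Y) (X - x')
    rwa [show X - Y - (X - x') = x' - Y by abel] at this
  have e3 : ‖X‖ ≤ ‖x'‖ + ‖X - x'‖ := by
    have := norm_add_le x' (X - x')
    rwa [add_sub_cancel] at this
  have e4 : α * ‖X‖ ≤ α * ‖x'‖ + ‖X - x'‖ := by
    have := mul_le_mul_of_nonneg_left e3 hα
    have := mul_le_of_le_one_left (norm_nonneg (X - x')) hα1
    linarith
  linarith

theorem separable_spanSp {τ V : Type} [Countable V] (e : V → lp (fun _ : τ => ℝ) ⊤) :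
    TopologicalSpace.SeparableSpace (spanSp e) :=
  ((Set.countable_range e).isSeparable.span (R := ℝ)).closure.separableSpace

theorem PropK.midpoint {X : Type} [NormedAddCommGroup X] [NormedSpace ℝ X] [CompleteSpace X]
    (h : PropK X) (t : ℝ) {c : ℝ} (hc : c ≤ Real.sqrt (1 + t ^ 2 / 4) - 1) :
    (mkB X).MidpointModulusGE (mkB X).norm t c := by
  intro x hx η hη
  obtain ⟨S, hS, h⟩ := h x η hη
  refine ⟨S, hS.isCof, fun y hy hy1 => ?_⟩
  have := h (t • y) (S.smul_mem t hy)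
  change ‖x‖ = 1 at hx
  change ‖y‖ = 1 at hy1
  rw [norm_smul, hx, hy1, mul_one, Real.norm_eq_abs, sq_abs, one_pow] at this
  change c - η ≤ (‖x + t • y‖ + ‖x - t • y‖) / 2 - 1
  linarith

theorem PropK.maxMidpoint {X : Type} [NormedAddCommGroup X] [NormedSpace ℝ X] [CompleteSpace X]
    (h : PropK X) (t : ℝ) :
    (mkB X).MaxMidpointModulusGE (mkB X).norm t (Real.sqrt (1 + t ^ 2 / 4) - 1) := by
  intro x hx η hη
  obtain ⟨F, hF, h⟩ := h.midpoint t le_rfl x hx η hη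
  refine ⟨F, hF, fun y hy hy1 => (h y hy hy1).trans ?_⟩
  have h1 := le_max_left ((mkB X).norm (x + t • y)) ((mkB X).norm (x - t • y))
  have h2 := le_max_right ((mkB X).norm (x + t • y)) ((mkB X).norm (x - t • y))
  linarith

end Crest.Agent.AUC
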