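import Mathlib
import Crest.Agent.AUC.TestSys

/-! `ℓ²`-sums: midpoint estimate, reflexivity, separability. -/

set_option autoImplicit false

namespace Crest.Agent.AUC

open Crest.AnalysisR Filter Topology

section CofOps

variable {X Y : Type*} [NormedAddCommGroup X] [NormedSpace ℝ X] [NormedAddCommGroup Y]
  [NormedSpace ℝ Y]

theorem Cof.comap {S : Submodule ℝ Y} (hS : Cof S) (T : X →L[ℝ] Y) :
    ∃ S' : Submodule ℝ X, Cof S' ∧ ∀ x ∈ S', T x ∈ S := by
  have : IsClosed (S : Set Y) := hS.1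
  have := hS.2
  refine ⟨_, cof_ker (S.mkQL.comp T), fun x hx => ?_⟩
  exact (Submodule.Quotient.mk_eq_zero S).1 hx

theorem Cof.inf {S T : Submodule ℝ X} (hS : Cof S) (hT : Cof T) :
    ∃ U : Submodule ℝ X, Cof U ∧ ∀ x ∈ U, x ∈ S ∧ x ∈ T := by
  have : IsClosed (S : Set X) := hS.1
  have := hS.2
  have : IsClosed (T : Set X) := hT.1
  have := hT.2
  refine ⟨_, cof_ker (S.mkQL.prod T.mkQL), fun x hx => ?_⟩
  have h : (S.mkQL x, T.mkQL x) = 0 := hx
  exact ⟨(Submodule.Quotient.mk_eq_zero S).1 (congrArg Prod.fst h),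
    (Submodule.Quotient.mk_eq_zero T).1 (congrArg Prod.snd h)⟩

theorem exists_cof_forall {ι : Type*} (A : Finset ι) (p : ι → X → Prop)
    (h : ∀ i ∈ A, ∃ S : Submodule ℝ X, Cof S ∧ ∀ x ∈ S, p i x) :
    ∃ S : Submodule ℝ X, Cof S ∧ ∀ x ∈ S, ∀ i ∈ A, p i x := by
  classical
  induction A using Finset.induction_on with
  | empty => exact ⟨_, cof_ker (0 : X →L[ℝ] ℝ), by simp⟩
  | insert a A _ ih =>
    obtain ⟨S, hS, h1⟩ := ih fun i hi => h i (Finset.mem_insert_of_mem hi)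
    obtain ⟨T, hT, h2⟩ := h a (Finset.mem_insert_self _ _)
    obtain ⟨U, hU, h3⟩ := hS.inf hT
    refine ⟨U, hU, fun x hx i hi => ?_⟩
    rcases Finset.mem_insert.1 hi with rfl | hi
    · exact h2 x (h3 x hx).2
    · exact h1 x (h3 x hx).1 i hi

theorem PropK.of_isometry (hK : PropK Y) (j : X →ₗᵢ[ℝ] Y) : PropK X := by
  intro x η hη
  obtain ⟨S, hS, h⟩ := hK (j x) η hη
  obtain ⟨S', hS', h'⟩ := hS.comap j.toContinuousLinearMap
  refine ⟨S', hS', fun y hy => ?_⟩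
  have := h (j y) (h' y hy)
  rwa [← map_add, ← map_sub, j.norm_map, j.norm_map, j.norm_map, j.norm_map] at this

/-- reflexivity -/
def Refl (X : Type*) [NormedAddCommGroup X] [NormedSpace ℝ X] : Prop :=
  ∀ Φ : StrongDual ℝ (StrongDual ℝ X), ∃ x : X, ∀ ψ : StrongDual ℝ X, Φ ψ = ψ x

theorem refl_of_equiv_hilbert {H : Type*} [NormedAddCommGroup H] [InnerProductSpace ℝ H]
    [CompleteSpace H] (e : H ≃L[ℝ] X) : Refl X := by
  intro Φ
  let T : H →L[ℝ] StrongDual ℝ X :=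
    ((ContinuousLinearMap.compL ℝ X H ℝ).flip e.symm.toContinuousLinearMap).comp (innerSL ℝ)
  refine ⟨e ((InnerProductSpace.toDual ℝ H).symm (Φ.comp T)), fun ψ => ?_⟩
  have h1 : T ((InnerProductSpace.toDual ℝ H).symm (ψ.comp e.toContinuousLinearMap)) = ψ := by
    ext x
    simp [T]
  have h2 := InnerProductSpace.toDual_symm_apply (𝕜 := ℝ) (E := H) (y := Φ.comp T)
    (x := (InnerProductSpace.toDual ℝ H).symm (ψ.comp e.toContinuousLinearMap))
  rw [real_inner_comm, InnerProductSpace.toDual_symm_apply, ContinuousLinearMap.comp_apply,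
    ContinuousLinearMap.comp_apply, h1] at h2
  exact h2.symm

end CofOps

section Lp

variable {ι : Type*} {X : ι → Type*} [∀ k, NormedAddCommGroup (X k)]

theorem lp_hasSum_sq (x : lp X 2) : HasSum (fun k => ‖x k‖ ^ 2) (‖x‖ ^ 2) := by
  have := lp.hasSum_norm (p := 2) (by norm_num) x
  simpa using this

theorem lp_sum_sq_le (x : lp X 2) (G : Finset ι) : ∑ k ∈ G, ‖x k‖ ^ 2 ≤ ‖x‖ ^ 2 :=
  sum_le_hasSum G (fun _ _ => sq_nonneg _) (lp_hasSum_sq x)

theorem memℓp_two_of_le {f : ∀ k, X k} {C : ℝ} (h : ∀ G : Finset ι, ∑ k ∈ G, ‖f k‖ ^ 2 ≤ C) :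
    Memℓp f 2 :=
  memℓp_gen' (C := C) (by simpa using h)

theorem lp_norm_sum_single_sq [DecidableEq ι] (f : ∀ k, X k) (G : Finset ι) :
    ‖∑ k ∈ G, lp.single 2 k (f k)‖ ^ 2 = ∑ k ∈ G, ‖f k‖ ^ 2 := by
  have := lp.norm_sum_single (p := 2) (by norm_num) f G
  simpa using this

variable [∀ k, NormedSpace ℝ (X k)]

theorem propK_lp (h : ∀ k, PropK (X k)) : PropK (lp X 2) := by
  classical
  intro x η hη
  obtain ⟨K, hK⟩ := (Metric.tendsto_nhds.1 (lp.hasSum_single (p := 2) (by norm_num) x) (η / 2)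
    (half_pos hη)).exists
  set x' : lp X 2 := ∑ k ∈ K, lp.single 2 k (x k) with hx'
  set η' := η / (2 * (K.card + 1)) with hη'
  have hη'0 : 0 < η' := by positivity
  obtain ⟨S, hS, hSy⟩ := exists_cof_forall (X := lp X 2) K
    (fun k y => Real.sqrt (‖x k‖ ^ 2 + ‖y k‖ ^ 2 / 4) - η' ≤ (‖x k + y k‖ + ‖x k - y k‖) / 2)
    (fun k _ => by
      obtain ⟨S, hS, h1⟩ := h k (x k) η' hη'0
      obtain ⟨S', hS', h2⟩ := hS.comap (lp.evalCLM ℝ X 2 k)
      exact ⟨S', hS', fun y hy => h1 _ (h2 y hy)⟩)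
  refine ⟨S, hS, fun y hy => ?_⟩
  let H : lp (fun _ : ι => ℝ) 2 := ∑ k ∈ K, lp.single 2 k η'
  let W : lp (fun _ : ι => ℝ) 2 :=
    (1 / 2 : ℝ) • (lp.toNorm (x + y) + lp.toNorm (x - y)) + (lp.toNorm (x' - x) + H)
  have hH : ‖H‖ ≤ η / 2 := by
    refine (norm_sum_le _ _).trans ?_
    simp only [lp.norm_single (p := 2) (by norm_num), Finset.sum_const, nsmul_eq_mul,
      Real.norm_eq_abs, abs_of_pos hη'0]
    rw [hη', mul_div_assoc', div_le_div_iff₀ (by positivity) (by positivity)]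
    nlinarith
  have hW : ‖W‖ ≤ (‖x + y‖ + ‖x - y‖) / 2 + η := by
    refine (norm_add_le _ _).trans ?_
    have h1 := norm_add_le (lp.toNorm (x + y)) (lp.toNorm (x - y))
    have h2 := norm_add_le (lp.toNorm (x' - x)) H
    rw [lp.norm_toNorm, lp.norm_toNorm] at h1
    rw [lp.norm_toNorm] at h2
    rw [dist_eq_norm] at hK
    rw [norm_smul]
    norm_num
    linarith
  have hWk : ∀ k, W k = (‖x k + y k‖ + ‖x k - y k‖) / 2 + (if k ∈ K then η' else ‖x k‖) := by
    intro k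
    have e1 : x' k = if k ∈ K then x k else 0 := by
      simp only [hx', lp.coeFn_single, lp.coeFn_sum, Finset.sum_apply, Finset.sum_pi_single]
    have e2 : H k = if k ∈ K then η' else 0 := by
      simp only [H, lp.coeFn_single, lp.coeFn_sum, Finset.sum_apply]
      exact Finset.sum_pi_single k (fun _ => η') K
    change (1 / 2 : ℝ) * (‖x k + y k‖ + ‖x k - y k‖) + (‖x' k - x k‖ + H k) = _
    rw [e1, e2]
    split_ifs <;> simp <;> ring
  have hle : ∀ k, ‖x k‖ ^ 2 + ‖y k‖ ^ 2 / 4 ≤ ‖W k‖ ^ 2 := by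
    intro k
    rw [Real.norm_eq_abs, sq_abs, hWk]
    split_ifs with hk
    · have := hSy y hy k hk
      exact (Real.sqrt_le_left (by positivity)).1 (by linarith)
    · have h1 := norm_sub_le (x k + y k) (x k - y k)
      rw [show x k + y k - (x k - y k) = (2 : ℝ) • y k by module, norm_smul] at h1
      norm_num at h1
      have h2 : ‖y k‖ + ‖x k‖ ≤ (‖x k + y k‖ + ‖x k - y k‖) / 2 + ‖x k‖ := by linarith
      refine le_trans ?_ (pow_le_pow_left₀ (by positivity) h2 2)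
      nlinarith [norm_nonneg (x k), norm_nonneg (y k)]
  have h3 := hasSum_le hle ((lp_hasSum_sq x).add ((lp_hasSum_sq y).div_const 4)) (lp_hasSum_sq W)
  have h4 : Real.sqrt (‖x‖ ^ 2 + ‖y‖ ^ 2 / 4) ≤ ‖W‖ := (Real.sqrt_le_left (norm_nonneg _)).2 h3
  linarith

theorem norm_sum_comp_eval_le (χ : ∀ k, StrongDual ℝ (X k)) (G : Finset ι) :
    ‖∑ k ∈ G, (χ k).comp (lp.evalCLM ℝ X 2 k)‖ ≤ Real.sqrt (∑ k ∈ G, ‖χ k‖ ^ 2) := by
  refine ContinuousLinearMap.opNorm_le_bound _ (Real.sqrt_nonneg _) fun x => ?_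
  rw [FunLike.coe_sum, Finset.sum_apply]
  refine (norm_sum_le _ _).trans ?_
  refine (Finset.sum_le_sum fun k _ => (χ k).le_opNorm (x k)).trans ?_
  refine (Real.sum_mul_le_sqrt_mul_sqrt _ _ _).trans ?_
  exact mul_le_mul_of_nonneg_left ((Real.sqrt_le_left (norm_nonneg _)).2 (lp_sum_sq_le x G))
    (Real.sqrt_nonneg _)

theorem le_of_le_mul_sqrt {S C : ℝ} (hS : 0 ≤ S) (h : S ≤ C * Real.sqrt S) : S ≤ C ^ 2 := by
  have h1 := Real.sq_sqrt hS
  have h2 := Real.sqrt_nonneg S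
  nlinarith [sq_nonneg (C - Real.sqrt S)]

theorem summable_norm_comp_single [DecidableEq ι] (ψ : StrongDual ℝ (lp X 2)) :
    Summable fun k => ‖ψ.comp (lp.singleContinuousLinearMap ℝ X 2 k)‖ ^ 2 := by
  have hu : ∀ k, ∃ u : X k, ‖u‖ ≤ ‖ψ.comp (lp.singleContinuousLinearMap ℝ X 2 k)‖ ∧
      ‖ψ.comp (lp.singleContinuousLinearMap ℝ X 2 k)‖ ^ 2 / 2 ≤ ψ (lp.single 2 k u) := by
    intro k
    set χ := ψ.comp (lp.singleContinuousLinearMap ℝ X 2 k) with hχ
    rcases (norm_nonneg χ).eq_or_lt with h0 | h0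
    · exact ⟨0, norm_zero.trans_le (norm_nonneg _), by rw [← h0]; simp⟩
    · obtain ⟨u, hu1, hu2⟩ := χ.exists_lt_apply_of_lt_opNorm (half_lt_self h0)
      rw [Real.norm_eq_abs] at hu2
      rcases abs_choice (χ u) with h | h <;> rw [h] at hu2
      · refine ⟨‖χ‖ • u, ?_, ?_⟩
        · rw [norm_smul, norm_norm]
          exact mul_le_of_le_one_right h0.le hu1.le
        · change _ ≤ χ (‖χ‖ • u)
          rw [map_smul, smul_eq_mul]
          nlinarith
      · refine ⟨‖χ‖ • (-u), ?_, ?_⟩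
        · rw [norm_smul, norm_norm, norm_neg]
          exact mul_le_of_le_one_right h0.le hu1.le
        · change _ ≤ χ (‖χ‖ • (-u))
          rw [map_smul, smul_eq_mul, map_neg]
          nlinarith
  choose u hu1 hu2 using hu
  refine summable_of_sum_le (c := (2 * ‖ψ‖) ^ 2) (fun _ => sq_nonneg _) fun G => ?_
  refine le_of_le_mul_sqrt (Finset.sum_nonneg fun _ _ => sq_nonneg _) ?_
  have h1 := Finset.sum_le_sum fun k (_ : k ∈ G) => hu2 k
  rw [← map_sum, ← Finset.sum_div] at h1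
  have h2 := (le_abs_self _).trans (ψ.le_opNorm (∑ k ∈ G, lp.single 2 k (u k)))
  have h3 : ‖∑ k ∈ G, lp.single 2 k (u k)‖ ≤
      Real.sqrt (∑ k ∈ G, ‖ψ.comp (lp.singleContinuousLinearMap ℝ X 2 k)‖ ^ 2) := by
    apply Real.le_sqrt_of_sq_le
    rw [lp_norm_sum_single_sq]
    exact Finset.sum_le_sum fun k _ => pow_le_pow_left₀ (norm_nonneg _) (hu1 k) 2
  have h4 := mul_le_mul_of_nonneg_left h3 (norm_nonneg ψ)
  linarith

theorem hasSum_comp_single [DecidableEq ι] (ψ : StrongDual ℝ (lp X 2)) :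
    HasSum (fun k => (ψ.comp (lp.singleContinuousLinearMap ℝ X 2 k)).comp (lp.evalCLM ℝ X 2 k))
      ψ := by
  have hs : Summable (fun k => (ψ.comp (lp.singleContinuousLinearMap ℝ X 2 k)).comp
      (lp.evalCLM ℝ X 2 k)) := by
    rw [summable_iff_vanishing_norm]
    intro ε hε
    obtain ⟨s, hs⟩ := summable_iff_vanishing_norm.1 (summable_norm_comp_single ψ) (ε ^ 2)
      (by positivity)
    refine ⟨s, fun t ht => (norm_sum_comp_eval_le _ t).trans_lt ?_⟩
    rw [Real.sqrt_lt' hε]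
    exact (le_abs_self _).trans_lt (hs t ht)
  convert hs.hasSum using 1
  ext1 x
  have h1 := hs.hasSum.mapL (ContinuousLinearMap.apply ℝ ℝ x)
  have h2 := (lp.hasSum_single (p := 2) (by norm_num) x).mapL ψ
  exact h2.unique h1

theorem refl_lp (h : ∀ k, Refl (X k)) : Refl (lp X 2) := by
  classical
  intro Φ
  choose x hx using fun k => h k
    (Φ.comp ((ContinuousLinearMap.compL ℝ (lp X 2) (X k) ℝ).flip (lp.evalCLM ℝ X 2 k)))
  have hx' : ∀ k (χ : StrongDual ℝ (X k)), Φ (χ.comp (lp.evalCLM ℝ X 2 k)) = χ (x k) :=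
    fun k χ => hx k χ
  have hmem : Memℓp x 2 := by
    refine memℓp_two_of_le (C := ‖Φ‖ ^ 2) fun G => ?_
    refine le_of_le_mul_sqrt (Finset.sum_nonneg fun _ _ => sq_nonneg _) ?_
    choose g hg1 hg2 using fun k => exists_dual_vector'' ℝ (x k)
    have h1 := (le_abs_self _).trans
      (Φ.le_opNorm (∑ k ∈ G, (‖x k‖ • g k).comp (lp.evalCLM ℝ X 2 k)))
    have h2 := norm_sum_comp_eval_le (fun k => ‖x k‖ • g k) G
    have h3 : Real.sqrt (∑ k ∈ G, ‖‖x k‖ • g k‖ ^ 2) ≤ Real.sqrt (∑ k ∈ G, ‖x k‖ ^ 2) := by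
      refine Real.sqrt_le_sqrt (Finset.sum_le_sum fun k _ => ?_)
      refine pow_le_pow_left₀ (norm_nonneg _) ?_ 2
      rw [norm_smul, norm_norm]
      exact mul_le_of_le_one_right (norm_nonneg _) (hg1 k)
    have h4 := mul_le_mul_of_nonneg_left (h2.trans h3) (norm_nonneg Φ)
    rw [map_sum] at h1
    simp only [hx', smul_apply, hg2, smul_eq_mul] at h1
    simp only [RCLike.ofReal_real_eq_id, id, ← pow_two] at h1
    exact h1.trans h4
  refine ⟨⟨x, hmem⟩, fun ψ => ?_⟩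
  have h1 := (hasSum_comp_single ψ).mapL Φ
  have h2 := (lp.hasSum_single (p := 2) (by norm_num) (⟨x, hmem⟩ : lp X 2)).mapL ψ
  simp only [hx'] at h1
  exact h1.unique h2

theorem separable_lp [Countable ι] [∀ k, TopologicalSpace.SeparableSpace (X k)] :
    TopologicalSpace.SeparableSpace (lp X 2) := by
  classical
  have h1 : TopologicalSpace.IsSeparable
      (⋃ k, Set.range (lp.singleContinuousLinearMap ℝ X 2 k)) :=
    TopologicalSpace.IsSeparable.iUnion fun k =>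
      TopologicalSpace.isSeparable_range (lp.singleContinuousLinearMap ℝ X 2 k).continuous
  rw [← TopologicalSpace.isSeparable_univ_iff]
  refine (h1.span (R := ℝ)).closure.mono fun x _ => ?_
  refine mem_closure_of_tendsto (lp.hasSum_single (p := 2) (by norm_num) x)
    (Eventually.of_forall fun G => ?_)
  exact Submodule.sum_mem _ fun k _ => Submodule.subset_span (Set.mem_iUnion.2 ⟨k, x k, rfl⟩)

end Lp

end Crest.Agent.AUC
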