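import Mathlib
import Crest.Prelude.Def_TreePotentials
import Crest.Agent.AUC.TestSys

/-! The bounded-potential tree spaces. -/

set_option autoImplicit false

namespace Crest.Agent.AUC

open Crest.AnalysisR Crest.AnalysisR.TreePotential Filter Topology

/-- increments of a potential -/
def incr (Q : List ℕ → ℝ) : List ℕ → ℝ
  | [] => Q []
  | a :: v => Q (a :: v) - Q v

theorem pathPotential_incr (Q : List ℕ → ℝ) : ∀ s, pathPotential (incr Q) s = Q s
  | [] => rfl
  | a :: v => by simp [pathPotential, pathPotential_incr Q v, incr]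

theorem pathPotential_smul (α : ℝ) (f : List ℕ → ℝ) :
    ∀ s, pathPotential (fun u => α * f u) s = α * pathPotential f s
  | [] => rfl
  | a :: v => by simp only [pathPotential, pathPotential_smul α f v]; ring

theorem pathPotential_sub (f g : List ℕ → ℝ) :
    ∀ s, pathPotential (fun u => f u - g u) s = pathPotential f s - pathPotential g s
  | [] => rfl
  | a :: v => by simp only [pathPotential, pathPotential_sub f g v]; ring

theorem pathPotential_indicator_of_mem (f : List ℕ → ℝ) {T : Set (List ℕ)}
    (hT : ∀ a v, a :: v ∈ T → v ∈ T) :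
    ∀ s ∈ T, pathPotential (T.indicator f) s = pathPotential f s
  | [], h => by simp [pathPotential, h]
  | a :: v, h => by
    simp only [pathPotential, pathPotential_indicator_of_mem f hT v (hT a v h),
      Set.indicator_of_mem h]

theorem pathPotential_indicator_compl_of_mem (f : List ℕ → ℝ) {T : Set (List ℕ)}
    (hT : ∀ a v, a :: v ∈ T → v ∈ T) :
    ∀ s ∈ T, pathPotential (Tᶜ.indicator f) s = 0
  | [], h => by simp [pathPotential, h]
  | a :: v, h => by
    simp [pathPotential, pathPotential_indicator_compl_of_mem f hT v (hT a v h), h]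

theorem abs_pathPotential_indicator_le (f : List ℕ → ℝ) {T : Set (List ℕ)}
    (hT : ∀ a v, a :: v ∈ T → v ∈ T) {ρ : ℝ} (hf : ∀ s, |pathPotential f s| ≤ ρ) :
    ∀ s, |pathPotential (T.indicator f) s| ≤ ρ
  | [] => by
    by_cases h : [] ∈ T
    · rw [pathPotential_indicator_of_mem f hT _ h]; exact hf _
    · simp only [pathPotential, Set.indicator_of_notMem h, abs_zero]
      exact (abs_nonneg _).trans (hf [])
  | a :: v => by
    by_cases h : a :: v ∈ T
    · rw [pathPotential_indicator_of_mem f hT _ h]; exact hf _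
    · simp only [pathPotential, Set.indicator_of_notMem h, add_zero]
      exact abs_pathPotential_indicator_le f hT hf v

/-- truncation -/
def clamp (a r : ℝ) : ℝ := max (-r) (min a r)

theorem abs_clamp_le (a : ℝ) {r : ℝ} (hr : 0 ≤ r) : |clamp a r| ≤ r := by
  unfold clamp
  rw [abs_le]
  exact ⟨le_max_left _ _, max_le (by linarith) (min_le_right _ _)⟩

theorem clamp_of_abs_le {a r : ℝ} (h : |a| ≤ r) : clamp a r = a := by
  unfold clamp
  rw [abs_le] at h
  rw [min_eq_left h.2, max_eq_right h.1]

theorem abs_clamp_sub_le (a r r' : ℝ) : |clamp a r - clamp a r'| ≤ |r - r'| := by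
  unfold clamp
  refine (abs_max_sub_max_le_max _ _ _ _).trans (max_le ?_ ?_)
  · rw [show -r - -r' = -(r - r') by ring, abs_neg]
  · refine (abs_min_sub_min_le_max _ _ _ _).trans (max_le ?_ le_rfl)
    simp

theorem tree_lemma (f g : List ℕ → ℝ) {T : Set (List ℕ)} (hT : ∀ a v, a :: v ∈ T → v ∈ T)
    {ρ : ℝ} (hf : ∀ s, |pathPotential f s| ≤ ρ) (hg : ∀ s, |pathPotential g s| ≤ ρ) :
    ∃ φ : ℝ → List ℕ → ℝ, (∀ ε, |ε| ≤ 1 → (∀ s, |pathPotential (φ ε) s| ≤ ρ) ∧
      (∀ s ∈ T, φ ε s = f s) ∧ ∀ s ∉ T, |φ ε s| ≤ |g s|) ∧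
      ∀ s ∉ T, φ 1 s - φ (-1) s = g s := by
  set a := pathPotential (T.indicator f) with ha
  set G := pathPotential (Tᶜ.indicator g) with hG
  have hρ : 0 ≤ ρ := (abs_nonneg _).trans (hf [])
  have hG2 : ∀ s, |G s| ≤ 2 * ρ := by
    intro s
    have : Tᶜ.indicator g = fun u => g u - T.indicator g u := by
      ext u
      by_cases h : u ∈ T <;> simp [h]
    rw [hG, this, pathPotential_sub]
    refine (abs_sub _ _).trans ?_
    linarith [hg s, abs_pathPotential_indicator_le g hT hg s]
  let Q : ℝ → List ℕ → ℝ := fun ε s => clamp (a s) (ρ - |G s| / 2) + ε * (G s / 2)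
  have hQT : ∀ ε, ∀ s ∈ T, Q ε s = pathPotential f s := by
    intro ε s hs
    simp only [Q]
    rw [hG, pathPotential_indicator_compl_of_mem g hT s hs, ha,
      pathPotential_indicator_of_mem f hT s hs, clamp_of_abs_le (by simpa using hf s)]
    simp
  refine ⟨fun ε => incr (Q ε), fun ε hε => ⟨fun s => ?_, fun s hs => ?_, fun s hs => ?_⟩,
    fun s hs => ?_⟩
  · rw [pathPotential_incr]
    refine (abs_add_le _ _).trans ?_
    have h1 := abs_clamp_le (a s) (r := ρ - |G s| / 2) (by linarith [hG2 s])
    have h2 : |ε * (G s / 2)| ≤ |G s| / 2 := by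
      rw [abs_mul, abs_div, abs_two]
      exact mul_le_of_le_one_left (by positivity) hε
    linarith
  · cases s with
    | nil => simp only [incr]; rw [hQT ε _ hs]; rfl
    | cons b v =>
      simp only [incr]
      rw [hQT ε _ hs, hQT ε _ (hT b v hs)]
      simp [pathPotential]
  · cases s with
    | nil =>
      simp only [incr, Q]
      have h1 : a [] = 0 := by simp [ha, pathPotential, hs]
      have h2 : G [] = g [] := by simp [hG, pathPotential, hs]
      rw [h1, clamp_of_abs_le (by simp; linarith [hG2 []]), h2, zero_add, abs_mul, abs_div,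
        abs_two]
      have := mul_le_of_le_one_left (b := |g []| / 2) (by positivity) hε
      linarith [abs_nonneg (g [])]
    | cons b v =>
      simp only [incr, Q]
      have h1 : a (b :: v) = a v := by simp [ha, pathPotential, hs]
      have h2 : G (b :: v) = G v + g (b :: v) := by simp [hG, pathPotential, hs]
      rw [h1]
      have h3 := abs_clamp_sub_le (a v) (ρ - |G (b :: v)| / 2) (ρ - |G v| / 2)
      have h4 : |ρ - |G (b :: v)| / 2 - (ρ - |G v| / 2)| ≤ |g (b :: v)| / 2 := by
        have := abs_abs_sub_abs_le_abs_sub (G (b :: v)) (G v)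
        rw [show G (b :: v) - G v = g (b :: v) by rw [h2]; ring, abs_le] at this
        rw [abs_le]
        constructor <;> linarith [this.1, this.2]
      have h5 : |ε * (g (b :: v) / 2)| ≤ |g (b :: v)| / 2 := by
        rw [abs_mul, abs_div, abs_two]
        exact mul_le_of_le_one_left (by positivity) hε
      have h6 : clamp (a v) (ρ - |G (b :: v)| / 2) + ε * (G (b :: v) / 2) -
          (clamp (a v) (ρ - |G v| / 2) + ε * (G v / 2)) =
          (clamp (a v) (ρ - |G (b :: v)| / 2) - clamp (a v) (ρ - |G v| / 2))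
            + ε * (g (b :: v) / 2) := by
        rw [h2]; ring
      rw [h6]
      refine (abs_add_le _ _).trans ?_
      linarith
  · cases s with
    | nil =>
      simp only [incr, Q]
      have h2 : G [] = g [] := by simp [hG, pathPotential, hs]
      rw [h2]; ring
    | cons b v =>
      simp only [incr, Q]
      have h2 : G (b :: v) = G v + g (b :: v) := by simp [hG, pathPotential, hs]
      rw [h2]; ring

theorem extra_of_sq_le (m : PotentialModel) {f g φ : List ℕ → ℝ} {α κ : ℝ}
    (hακ : α ^ 2 + κ ^ 2 ≤ 1) (hf : ExtraCondition m f) (hg : ExtraCondition m g)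
    (h : ∀ s, φ s ^ 2 ≤ α ^ 2 * f s ^ 2 + κ ^ 2 * g s ^ 2) : ExtraCondition m φ := by
  have key : ∀ {ι : Type} (A : Finset ι) (u : ι → List ℕ), ∑ n ∈ A, f (u n) ^ 2 ≤ 1 →
      ∑ n ∈ A, g (u n) ^ 2 ≤ 1 → ∑ n ∈ A, φ (u n) ^ 2 ≤ 1 := by
    intro ι A u h1 h2
    refine (Finset.sum_le_sum fun n _ => h (u n)).trans ?_
    rw [Finset.sum_add_distrib, ← Finset.mul_sum, ← Finset.mul_sum]
    nlinarith [sq_nonneg α, sq_nonneg κ]
  cases m with
  | rootlessSibling =>
    refine ⟨?_, fun r A => key A (· :: r) (hf.2 r A) (hg.2 r A)⟩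
    have := h []
    rw [hf.1, hg.1] at this
    exact pow_eq_zero_iff (two_ne_zero) |>.1 (le_antisymm (by simpa using this) (sq_nonneg _))
  | rootedSibling => exact fun r A => key A (· :: r) (hf r A) (hg r A)
  | antichain =>
    refine ⟨(hf.1.union hg.1).subset fun s hs => ?_, fun A hA => key A id (hf.2 A hA) (hg.2 A hA)⟩
    by_contra hn
    simp only [Set.mem_union, Function.mem_support, not_or, not_not] at hn
    have := h s
    rw [hn.1, hn.2] at this
    exact hs (pow_eq_zero_iff (two_ne_zero) |>.1 (le_antisymm (by simpa using this) (sq_nonneg _)))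
  | global => exact fun A => key A id (hf A) (hg A)

theorem isTest_zero (m : PotentialModel) : IsTest m (fun _ => 0) := by
  refine ⟨fun s => ?_, ?_⟩
  · have := pathPotential_smul 0 (fun _ => 0) s
    simp only [zero_mul] at this
    rw [this]; simp
  · cases m <;> simp [ExtraCondition]

instance (m : PotentialModel) : Nonempty (PotentialTest m) := ⟨⟨_, isTest_zero m⟩⟩

theorem pathPotential_single (s : List ℕ) :
    ∀ u, pathPotential (Pi.single s (1 : ℝ)) u = if s <:+ u then 1 else 0
  | [] => by
    by_cases h : s = []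
    · subst h; simp [pathPotential]
    · simp [pathPotential, h]
  | a :: v => by
    simp only [pathPotential, pathPotential_single s v, List.suffix_cons_iff]
    by_cases h : s = a :: v
    · subst h
      have : ¬ (a :: v <:+ v) := fun h => by
        have := h.length_le
        simp at this
      simp [this]
    · simp [h]

theorem sum_single_sq_le {ι : Type} (A : Finset ι) (u : ι → List ℕ) (hu : Function.Injective u)
    (s : List ℕ) : ∑ n ∈ A, (Pi.single s (1 : ℝ) : List ℕ → ℝ) (u n) ^ 2 ≤ 1 := by
  classical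
  rw [← Finset.sum_image (f := fun w => (Pi.single s (1 : ℝ) : List ℕ → ℝ) w ^ 2)
    (fun x _ y _ h => hu h)]
  have : ∀ w, (Pi.single s (1 : ℝ) : List ℕ → ℝ) w ^ 2 = if w = s then 1 else 0 := by
    intro w
    by_cases h : w = s
    · subst h; simp
    · simp [h]
  simp only [this, Finset.sum_ite_eq']
  split_ifs <;> norm_num

theorem isTest_single (m : PotentialModel) (s : List ℕ) (hs : m = .rootlessSibling → s ≠ []) :
    IsTest m (Pi.single s (1 : ℝ)) := by
  refine ⟨fun u => ?_, ?_⟩
  · rw [pathPotential_single]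
    split_ifs <;> norm_num
  · cases m with
    | rootlessSibling =>
      exact ⟨Pi.single_eq_of_ne' (hs rfl) _, fun r A =>
        sum_single_sq_le A (· :: r) (fun x y h => by simpa using h) s⟩
    | rootedSibling => exact fun r A => sum_single_sq_le A (· :: r) (fun x y h => by simpa using h) s
    | antichain =>
      exact ⟨(Set.finite_singleton s).subset Pi.support_single_subset,
        fun A _ => sum_single_sq_le A id Function.injective_id s⟩
    | global => exact fun A => sum_single_sq_le A id Function.injective_id s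

theorem sibling_sq_le (m : PotentialModel) {f : List ℕ → ℝ} (hf : ExtraCondition m f)
    (r : List ℕ) (A : Finset ℕ) : ∑ n ∈ A, f (n :: r) ^ 2 ≤ 1 := by
  classical
  have himg : ∑ u ∈ A.image (· :: r), f u ^ 2 = ∑ n ∈ A, f (n :: r) ^ 2 :=
    Finset.sum_image (fun x _ y _ h => by simpa using h)
  cases m with
  | rootlessSibling => exact hf.2 r A
  | rootedSibling => exact hf r A
  | antichain =>
    rw [← himg]
    refine hf.2 _ fun u hu v hv huv h => huv ?_
    obtain ⟨a, -, rfl⟩ := Finset.mem_image.1 hu
    obtain ⟨b, -, rfl⟩ := Finset.mem_image.1 hv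
    exact h.eq_of_length (by simp)
  | global => rw [← himg]; exact hf _

theorem exists_ancestorClosed (T0 : Finset (List ℕ)) :
    ∃ T : Finset (List ℕ), T0 ⊆ T ∧ ∀ a v, a :: v ∈ T → v ∈ T := by
  classical
  refine ⟨T0.biUnion fun s => s.tails.toFinset, fun s hs => ?_, fun a v h => ?_⟩
  · simp only [Finset.mem_biUnion, List.mem_toFinset, List.mem_tails]
    exact ⟨s, hs, List.suffix_refl s⟩
  · simp only [Finset.mem_biUnion, List.mem_toFinset, List.mem_tails] at h ⊢
    obtain ⟨s, hs, h⟩ := h
    exact ⟨s, hs, (List.suffix_cons a v).trans h⟩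

theorem coordVector_apply (m : PotentialModel) (s : List ℕ) (f : PotentialTest m) :
    coordVector m s f = f.1 s := rfl

theorem propK_model (m : PotentialModel) : PropK (spanSp (coordVector m)) := by
  refine propK_spanSp _ (fun s => ?_) (fun T0 => ?_)
  · by_cases hs : m = .rootlessSibling → s ≠ []
    · refine ⟨lp.evalCLM ℝ (fun _ : PotentialTest m => ℝ) ⊤ ⟨_, isTest_single m s hs⟩,
        fun s' h => ?_, Or.inl ?_⟩
      · exact Pi.single_eq_of_ne h _
      · exact Pi.single_eq_same (M := fun _ => ℝ) s (1 : ℝ)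
    · push Not at hs
      obtain ⟨rfl, rfl⟩ := hs
      refine ⟨0, fun _ _ => rfl, Or.inr ?_⟩
      ext f
      exact f.2.2.1
  · obtain ⟨T, hT0, hT⟩ := exists_ancestorClosed T0
    refine ⟨T, hT0, fun f g α κ hακ => ?_⟩
    have hα : |α| ≤ 1 := by rw [← sq_le_one_iff_abs_le_one]; nlinarith [sq_nonneg κ]
    have hκ : |κ| ≤ 1 := by rw [← sq_le_one_iff_abs_le_one]; nlinarith [sq_nonneg α]
    obtain ⟨φ, h1, h2⟩ := tree_lemma (fun u => α * f.1 u) (fun u => κ * g.1 u)
      (T := (T : Set (List ℕ))) hT (ρ := 1)
      (fun s => by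
        rw [pathPotential_smul, abs_mul]
        exact mul_le_one₀ hα (abs_nonneg _) (f.2.1 s))
      (fun s => by
        rw [pathPotential_smul, abs_mul]
        exact mul_le_one₀ hκ (abs_nonneg _) (g.2.1 s))
    have htest : ∀ ε, |ε| ≤ 1 → IsTest m (φ ε) := by
      intro ε hε
      obtain ⟨h3, h4, h5⟩ := h1 ε hε
      refine ⟨h3, extra_of_sq_le m hακ f.2.2 g.2.2 fun s => ?_⟩
      by_cases hs : s ∈ T
      · rw [h4 s hs, mul_pow]
        exact le_add_of_nonneg_right (by positivity)
      · have := sq_le_sq.2 (h5 s hs)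
        rw [mul_pow] at this
        exact this.trans (le_add_of_nonneg_left (by positivity))
    refine ⟨⟨φ 1, htest 1 (by simp)⟩, ⟨φ (-1), htest (-1) (by simp)⟩, fun s hs => ⟨?_, ?_⟩,
      fun s hs => h2 s hs⟩
    · exact (h1 1 (by simp)).2.1 s hs
    · exact (h1 (-1) (by simp)).2.1 s hs

/-- the path vectors -/
noncomputable def pathVec (m : PotentialModel) : List ℕ → lp (fun _ : PotentialTest m => ℝ) ⊤
  | [] => coordVector m []
  | a :: v => pathVec m v + coordVector m (a :: v)

theorem pathVec_apply (m : PotentialModel) (f : PotentialTest m) :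
    ∀ s, pathVec m s f = pathPotential f.1 s
  | [] => rfl
  | a :: v => by
    simp only [pathVec, pathPotential, lp.coeFn_add, Pi.add_apply, pathVec_apply m f v]
    rfl

theorem norm_pathVec_le (m : PotentialModel) (s : List ℕ) : ‖pathVec m s‖ ≤ 1 :=
  lp.norm_le_of_forall_le' _ fun f => by
    rw [pathVec_apply]
    exact f.2.1 s

theorem one_le_norm_coordVector (m : PotentialModel) (a : ℕ) (v : List ℕ) :
    1 ≤ ‖coordVector m (a :: v)‖ := by
  let f : PotentialTest m := ⟨_, isTest_single m (a :: v) (fun _ => by simp)⟩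
  have := abs_apply_le (coordVector m (a :: v)) f
  rw [coordVector_apply] at this
  simpa [f] using this

theorem one_le_norm_pathVec (m : PotentialModel) (a : ℕ) (v : List ℕ) :
    1 ≤ ‖pathVec m (a :: v)‖ := by
  let f : PotentialTest m := ⟨_, isTest_single m (a :: v) (fun _ => by simp)⟩
  have := abs_apply_le (pathVec m (a :: v)) f
  rw [pathVec_apply] at this
  simpa [f, pathPotential_single] using this

theorem norm_sum_coordVector_le (m : PotentialModel) (v : List ℕ) (B : Finset ℕ) :
    ‖∑ n ∈ B, coordVector m (n :: v)‖ ≤ 1 * Real.sqrt B.card := by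
  refine lp.norm_le_of_forall_le' _ fun f => ?_
  rw [lp.coeFn_sum, Finset.sum_apply, one_mul]
  apply Real.le_sqrt_of_sq_le
  rw [Real.norm_eq_abs, sq_abs]
  refine (sq_sum_le_card_mul_sum_sq).trans ?_
  exact mul_le_of_le_one_right (by positivity) (sibling_sq_le m f.2.2 v B)

theorem coordVector_mem (m : PotentialModel) (s : List ℕ) :
    coordVector m s ∈ spanSp (coordVector m) :=
  Submodule.le_topologicalClosure _ (Submodule.subset_span ⟨s, rfl⟩)

theorem pathVec_mem (m : PotentialModel) : ∀ s, pathVec m s ∈ spanSp (coordVector m)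
  | [] => coordVector_mem m []
  | _ :: v => Submodule.add_mem _ (pathVec_mem m v) (coordVector_mem m _)

end Crest.Agent.AUC
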