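import Mathlib
import Crest.Agent.AUC.Tree
import Crest.Agent.AUC.LpSum

/-! Finite-height blocks of the global tree space. -/

set_option autoImplicit false

namespace Crest.Agent.AUC

open Crest.AnalysisR Crest.AnalysisR.TreePotential Filter Topology

/-- vertices of height at most `k` -/
abbrev Low (k : ℕ) : Type := {s : List ℕ // s.length ≤ k}

/-- the Hilbert space of the block -/
abbrev HB (k : ℕ) : Type := lp (fun _ : Low k => ℝ) 2

/-- the ambient space -/
abbrev Amb : Type := lp (fun _ : PotentialTest .global => ℝ) ⊤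

theorem sum_low_sq_le (k : ℕ) (f : PotentialTest .global) (G : Finset (Low k)) :
    ∑ s ∈ G, ‖f.1 s.1‖ ^ 2 ≤ 1 := by
  have := f.2.2 (G.map (Function.Embedding.subtype _))
  rw [Finset.sum_map] at this
  simpa using this

/-- restriction of a test -/
noncomputable def restr (k : ℕ) (f : PotentialTest .global) : HB k :=
  ⟨fun s => f.1 s.1, memℓp_two_of_le (sum_low_sq_le k f)⟩

theorem norm_restr_le (k : ℕ) (f : PotentialTest .global) : ‖restr k f‖ ≤ 1 := by
  have := hasSum_le_of_sum_le (lp_hasSum_sq (restr k f)) (sum_low_sq_le k f)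
  nlinarith [norm_nonneg (restr k f)]

theorem abs_inner_restr_le (k : ℕ) (a : HB k) (f : PotentialTest .global) :
    ‖inner ℝ (restr k f) a‖ ≤ ‖a‖ :=
  (norm_inner_le_norm _ _).trans (mul_le_of_le_one_left (norm_nonneg _) (norm_restr_le k f))

/-- the embedding of the Hilbert space -/
noncomputable def embB (k : ℕ) : HB k →L[ℝ] Amb :=
  LinearMap.mkContinuous
    { toFun := fun a => ⟨fun f => inner ℝ (restr k f) a, memℓp_infty ⟨‖a‖, by
        rintro _ ⟨f, rfl⟩
        exact abs_inner_restr_le k a f⟩⟩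
      map_add' := fun a b => by
        ext f
        exact inner_add_right _ _ _
      map_smul' := fun c a => by
        ext f
        exact inner_smul_right _ _ _ } 1 (fun a => by
    rw [one_mul]
    exact lp.norm_le_of_forall_le' _ fun f => abs_inner_restr_le k a f)

theorem embB_apply (k : ℕ) (a : HB k) (f : PotentialTest .global) :
    embB k a f = inner ℝ (restr k f) a := rfl

theorem embB_single (k : ℕ) (s : Low k) (c : ℝ) :
    embB k (lp.single 2 s c) = c • coordVector .global s.1 := by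
  ext f
  rw [embB_apply, lp.inner_single_right]
  simp [restr, coordVector_apply]

theorem pathPotential_eq_sum (f : List ℕ → ℝ) : ∀ s : List ℕ, ∃ A : Finset (List ℕ),
    A.card ≤ s.length + 1 ∧ (∀ u ∈ A, u.length ≤ s.length) ∧ pathPotential f s = ∑ u ∈ A, f u
  | [] => ⟨{[]}, by simp, by simp, by simp [pathPotential]⟩
  | a :: v => by
    obtain ⟨A, h1, h2, h3⟩ := pathPotential_eq_sum f v
    have h : a :: v ∉ A := fun h => by
      have := h2 _ h
      simp at this
    refine ⟨insert (a :: v) A, ?_, ?_, ?_⟩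
    · rw [Finset.card_insert_of_notMem h]
      simpa using h1
    · intro u hu
      rcases Finset.mem_insert.1 hu with rfl | hu
      · exact le_rfl
      · exact (h2 u hu).trans (by simp)
    · rw [Finset.sum_insert h, pathPotential, h3, add_comm]

theorem pathPotential_low (f : List ℕ → ℝ) (k : ℕ) (hf : ∀ s, k < s.length → f s = 0) :
    ∀ s : List ℕ, ∃ s' : List ℕ, s'.length ≤ k ∧ pathPotential f s = pathPotential f s'
  | [] => ⟨[], by simp, rfl⟩
  | a :: v => by
    by_cases h : (a :: v).length ≤ k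
    · exact ⟨_, h, rfl⟩
    · obtain ⟨s', h1, h2⟩ := pathPotential_low f k hf v
      exact ⟨s', h1, by rw [pathPotential, hf _ (not_le.1 h), add_zero, h2]⟩

theorem norm_le_embB (k : ℕ) (a : HB k) : ‖a‖ ≤ Real.sqrt (k + 1) * ‖embB k a‖ := by
  classical
  rcases (norm_nonneg a).eq_or_lt with h0 | h0
  · rw [← h0]; positivity
  have hk : 0 < Real.sqrt (k + 1) := Real.sqrt_pos.2 (by positivity)
  have hk2 : Real.sqrt (k + 1) ^ 2 = k + 1 := Real.sq_sqrt (by positivity)
  set c := (Real.sqrt (k + 1) * ‖a‖)⁻¹ with hc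
  let f : List ℕ → ℝ := fun s => if h : s.length ≤ k then c * a ⟨s, h⟩ else 0
  have hsum : ∀ A : Finset (List ℕ), ∑ u ∈ A, f u ^ 2 ≤ ((k : ℝ) + 1)⁻¹ := by
    intro A
    have h1 : ∑ u ∈ A, f u ^ 2 = ∑ u ∈ A.subtype (fun s => s.length ≤ k), f u.1 ^ 2 := by
      rw [Finset.sum_subtype_eq_sum_filter (f := fun u => f u ^ 2), Finset.sum_filter]
      refine Finset.sum_congr rfl fun u _ => ?_
      split_ifs with h
      · rfl
      · simp [f, h]
    have h2 : ∀ u : Low k, f u.1 ^ 2 = c ^ 2 * ‖a u‖ ^ 2 := by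
      intro u
      simp [f, u.2, mul_pow]
    rw [h1]
    simp only [h2, ← Finset.mul_sum]
    refine (mul_le_mul_of_nonneg_left (lp_sum_sq_le a _) (sq_nonneg c)).trans (le_of_eq ?_)
    rw [hc, inv_pow, mul_pow, hk2]
    field_simp
  have htest : IsTest .global f := by
    refine ⟨fun s => ?_, fun A => (hsum A).trans (inv_le_one_of_one_le₀ (by simp))⟩
    obtain ⟨s', h1, h2⟩ := pathPotential_low f k (fun s hs => by simp [f, not_le.2 hs]) s
    obtain ⟨A, h3, -, h4⟩ := pathPotential_eq_sum f s'
    rw [h2, h4, ← sq_le_one_iff_abs_le_one]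
    refine sq_sum_le_card_mul_sum_sq.trans ?_
    have h5 : (A.card : ℝ) ≤ k + 1 := by exact_mod_cast h3.trans (by omega)
    refine (mul_le_mul h5 (hsum A) (Finset.sum_nonneg fun _ _ => sq_nonneg _)
      (by positivity)).trans (le_of_eq ?_)
    field_simp
  let F : PotentialTest .global := ⟨f, htest⟩
  have h1 : restr k F = c • a := by
    ext u
    simp [restr, F, f, u.2]
  have h2 := abs_apply_le (embB k a) F
  rw [embB_apply, h1, inner_smul_left, real_inner_self_eq_norm_sq] at h2
  have h3 : c * ‖a‖ ^ 2 ≤ ‖embB k a‖ := (le_abs_self _).trans h2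
  have h4 : ‖a‖ = Real.sqrt (k + 1) * (c * ‖a‖ ^ 2) := by
    rw [hc]
    field_simp
  rw [h4]
  exact mul_le_mul_of_nonneg_left h3 hk.le

theorem antilipschitz_embB (k : ℕ) : AntilipschitzWith (NNReal.sqrt (k + 1)) (embB k) :=
  AddMonoidHomClass.antilipschitz_of_bound _ fun a => by
    simpa using norm_le_embB k a

/-- the block -/
noncomputable abbrev Blk (k : ℕ) : Submodule ℝ Amb := LinearMap.range (embB k : HB k →ₗ[ℝ] Amb)

theorem isClosed_Blk (k : ℕ) : IsClosed (Blk k : Set Amb) :=
  (antilipschitz_embB k).isClosed_range (embB k).uniformContinuous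

instance (k : ℕ) : CompleteSpace (Blk k) := (isClosed_Blk k).completeSpace_coe

theorem Blk_le (k : ℕ) : Blk k ≤ spanSp (coordVector .global) := by
  classical
  rintro _ ⟨a, rfl⟩
  refine (Submodule.isClosed_topologicalClosure _).mem_of_tendsto
    ((lp.hasSum_single (p := 2) (by norm_num) a).mapL (embB k)) (Eventually.of_forall fun G => ?_)
  refine Submodule.sum_mem _ fun s _ => ?_
  rw [embB_single]
  exact Submodule.smul_mem _ _ (coordVector_mem _ _)

theorem propK_Blk (k : ℕ) : PropK (Blk k) :=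
  (propK_model .global).of_isometry ⟨Submodule.inclusion (Blk_le k), fun _ => rfl⟩

theorem refl_Blk (k : ℕ) : Refl (Blk k) :=
  refl_of_equiv_hilbert
    ((embB k).equivRange (antilipschitz_embB k).injective (isClosed_Blk k))

instance (k : ℕ) : TopologicalSpace.SeparableSpace (Blk k) :=
  (((Set.countable_range (coordVector .global)).isSeparable.span (R := ℝ)).closure.mono
    (Blk_le k)).separableSpace

theorem coordVector_mem_Blk {k : ℕ} {s : List ℕ} (h : s.length ≤ k) :
    coordVector .global s ∈ Blk k := by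
  classical
  exact ⟨lp.single 2 ⟨s, h⟩ 1, (embB_single k ⟨s, h⟩ 1).trans (one_smul _ _)⟩

theorem pathVec_mem_Blk {k : ℕ} : ∀ {s : List ℕ}, s.length ≤ k → pathVec .global s ∈ Blk k
  | [], h => coordVector_mem_Blk h
  | _ :: _, h => Submodule.add_mem _ (pathVec_mem_Blk ((Nat.le_succ _).trans h))
      (coordVector_mem_Blk h)

/-- the space -/
abbrev BigSp : Type := lp (fun k : ℕ => Blk k) 2

theorem bigSp_sqrt (k : ℕ) (v : List ℕ) (hv : v.length + 1 ≤ k) (B : Finset ℕ) :
    ‖∑ n ∈ B, (lp.single 2 k ⟨coordVector .global (n :: v), coordVector_mem_Blk hv⟩ : BigSp)‖ ≤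
      1 * Real.sqrt B.card := by
  have := map_sum (lp.singleContinuousLinearMap ℝ (fun k : ℕ => Blk k) 2 k)
    (fun n => (⟨coordVector .global (n :: v), coordVector_mem_Blk hv⟩ : Blk k)) B
  simp only [lp.singleContinuousLinearMap_apply] at this
  rw [← this, lp.norm_single (by norm_num), Submodule.coe_norm, Submodule.coe_sum]
  exact norm_sum_coordVector_le .global v B

theorem bigSp_not_auc (N : BigSp → ℝ) (hN : (mkB BigSp).IsEquivNorm N) :
    ¬ (mkB BigSp).IsAUC N := by
  refine not_auc_of_sqrt 1 1 one_pos (fun k => ⟨fun j => {p | ∃ (s : List ℕ)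
    (h : s.length ≤ k + 1), s.length = j + 1 ∧
      p = lp.single 2 (k + 1) ⟨pathVec .global s, pathVec_mem_Blk h⟩}, ?_, ?_, ?_⟩) N hN
  · rintro j - _ ⟨s, h, -, rfl⟩
    rw [lp.norm_single (by norm_num)]
    exact norm_pathVec_le _ s
  · refine ⟨_, ⟨[0], by simp, rfl, rfl⟩, ?_⟩
    rw [lp.norm_single (by norm_num)]
    exact one_le_norm_pathVec _ 0 []
  · rintro j hj _ ⟨s, h, hs, rfl⟩
    have hv : s.length + 1 ≤ k + 1 := by omega
    refine ⟨fun n => lp.single 2 (k + 1) ⟨coordVector .global (n :: s), coordVector_mem_Blk hv⟩,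
      1, fun n => ?_, fun n => ⟨n :: s, hv, by simp [hs], ?_⟩, bigSp_sqrt _ s hv⟩
    · rw [lp.norm_single (by norm_num)]
      exact one_le_norm_coordVector _ n s
    · rw [← lp.single_add]
      rfl

theorem bigSp_infinite : ¬ FiniteDimensional ℝ BigSp :=
  not_finiteDimensional_of_sqrt
    (fun n => (lp.single 2 1 ⟨coordVector .global [n], coordVector_mem_Blk le_rfl⟩ : BigSp)) 1 1
    one_pos (fun n => by
      rw [lp.norm_single (by norm_num)]
      exact one_le_norm_coordVector _ n []) (bigSp_sqrt 1 [] le_rfl)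

end Crest.Agent.AUC
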