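import Mathlib
import Crest.Prelude.Def_DaugavetL1
import Crest.Agent.AUC.Basic

/-! Consequences of the Daugavet property, and measure-compact subspaces of `L¹`. -/

set_option autoImplicit false

namespace Crest.Agent.AUC

open Crest.AnalysisR Crest.AnalysisR.L1Subspace Filter Topology MeasureTheory

section DP

variable {X : Type*} [NormedAddCommGroup X] [NormedSpace ℝ X]

theorem dp_unit (hD : HasDaugavetProperty X) (w : X) (hw : 1 ≤ ‖w‖) (ψ : X →L[ℝ] ℝ)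
    (hψ : ‖ψ‖ = 1) {δ : ℝ} (hδ : 0 < δ) :
    ∃ z : X, ‖z‖ ≤ 1 ∧ 1 - δ ≤ ψ z ∧ ‖w‖ + 1 - 2 * δ ≤ ‖w + z‖ := by
  have h := hD ψ w
  rw [ContinuousLinearMap.norm_smulRight_apply, hψ, one_mul] at h
  obtain ⟨u, hu1, hu2⟩ := ContinuousLinearMap.exists_lt_apply_of_lt_opNorm
    (ContinuousLinearMap.id ℝ X + ψ.smulRight w) (r := 1 + ‖w‖ - δ) (by rw [h]; linarith)
  have key : ∀ u : X, ‖u‖ < 1 → 1 + ‖w‖ - δ < ‖u + ψ u • w‖ → 0 ≤ ψ u →
      ∃ z : X, ‖z‖ ≤ 1 ∧ 1 - δ ≤ ψ z ∧ ‖w‖ + 1 - 2 * δ ≤ ‖w + z‖ := by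
    intro u hu1 hu2 hu3
    have h1 : ψ u ≤ 1 := by
      have := ψ.le_opNorm u
      rw [hψ, Real.norm_eq_abs] at this
      linarith [le_abs_self (ψ u)]
    have h2 := norm_add_le u (ψ u • w)
    rw [norm_smul, Real.norm_eq_abs, abs_of_nonneg hu3] at h2
    have h3 : (1 - ψ u) * ‖w‖ ≤ δ := by linarith
    have h4 : (1 - ψ u) * 1 ≤ (1 - ψ u) * ‖w‖ := mul_le_mul_of_nonneg_left hw (by linarith)
    refine ⟨u, hu1.le, by linarith, ?_⟩
    have h5 := norm_sub_le (w + u) ((1 - ψ u) • w)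
    rw [norm_smul, Real.norm_eq_abs, abs_of_nonneg (by linarith),
      show w + u - (1 - ψ u) • w = u + ψ u • w by module] at h5
    linarith
  simp only [add_apply, ContinuousLinearMap.id_apply, ContinuousLinearMap.smulRight_apply] at hu2
  rcases le_total 0 (ψ u) with h0 | h0
  · exact key u hu1 hu2 h0
  · refine key (-u) (by simpa using hu1) ?_ (by simpa using h0)
    rw [map_neg, neg_smul, ← neg_add, norm_neg]
    exact hu2

theorem dp_gen (hD : HasDaugavetProperty X) (w : X) (hw : 1 ≤ ‖w‖) (ψ : X →L[ℝ] ℝ)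
    {δ : ℝ} (hδ : 0 < δ) :
    ∃ z : X, ‖z‖ ≤ 1 ∧ ‖ψ‖ - δ ≤ ψ z ∧ ‖w‖ + 1 - δ ≤ ‖w + z‖ := by
  by_cases h0 : ψ = 0
  · obtain ⟨φ, hφ, -⟩ := exists_dual_vector ℝ w (by linarith)
    obtain ⟨z, h1, -, h3⟩ := dp_unit hD w hw φ hφ (half_pos hδ)
    exact ⟨z, h1, by simp [h0, hδ.le], by linarith⟩
  · have hn : 0 < ‖ψ‖ := norm_pos_iff.2 h0
    obtain ⟨z, h1, h2, h3⟩ := dp_unit hD w hw (‖ψ‖⁻¹ • ψ)
      (by rw [norm_smul, norm_inv, norm_norm, inv_mul_cancel₀ hn.ne'])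
      (lt_min (half_pos hδ) (div_pos hδ hn))
    refine ⟨z, h1, ?_, by linarith [min_le_left (δ / 2) (δ / ‖ψ‖)]⟩
    have h4 : 1 - δ / ‖ψ‖ ≤ ‖ψ‖⁻¹ * ψ z := by
      have := min_le_right (δ / 2) (δ / ‖ψ‖)
      simp only [smul_apply, smul_eq_mul] at h2
      linarith
    have := mul_le_mul_of_nonneg_left h4 hn.le
    rw [← mul_assoc, mul_inv_cancel₀ hn.ne', one_mul, mul_sub, mul_one,
      mul_div_cancel₀ _ hn.ne'] at this
    exact this

theorem dp_greedy (hD : HasDaugavetProperty X) {H : Type*} [NormedAddCommGroup H]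
    [InnerProductSpace ℝ H] (Φ : X →L[ℝ] H) (x : X) (hx : ‖x‖ = 1) (n : ℕ) (hn : 1 ≤ n)
    {δ : ℝ} (hδ : 0 < δ) (hδ1 : δ ≤ 1) (i : ℕ) :
    ∃ Z : X, ‖Z‖ ≤ i ∧ n + i * (1 - δ) ≤ ‖Z - (n : ℝ) • x‖ ∧
      ‖Φ (Z - (i : ℝ) • x)‖ ^ 2 ≤ i * (2 * δ + 4 * ‖Φ‖ ^ 2) := by
  induction i with
  | zero => exact ⟨0, by simp, by simp [norm_smul, hx], by simp⟩
  | succ i ih =>
    obtain ⟨Z, h1, h2, h3⟩ := ih
    have hn' : (1 : ℝ) ≤ n := by exact_mod_cast hn
    have hi : (0 : ℝ) ≤ i * (1 - δ) := mul_nonneg (Nat.cast_nonneg _) (by linarith)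
    obtain ⟨z, h4, h5, h6⟩ := dp_gen hD (Z - (n : ℝ) • x) (by linarith)
      (-((innerSL ℝ (Φ (Z - (i : ℝ) • x))).comp Φ)) hδ
    refine ⟨Z + z, ?_, ?_, ?_⟩
    · push_cast
      linarith [norm_add_le Z z]
    · rw [show Z + z - (n : ℝ) • x = Z - (n : ℝ) • x + z by abel]
      push_cast
      linarith
    · set e := Φ (Z - (i : ℝ) • x) with he
      have h7 : Φ (Z + z - ((i + 1 : ℕ) : ℝ) • x) = e + Φ (z - x) := by
        rw [he, ← map_add]
        congr 1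
        push_cast
        module
      have h8 := (-((innerSL ℝ e).comp Φ)).le_opNorm x
      rw [hx, mul_one, Real.norm_eq_abs] at h8
      have h9 := (le_abs_self _).trans h8
      simp only [neg_apply, ContinuousLinearMap.comp_apply, innerSL_apply_apply] at h5 h9
      have h10 : inner ℝ e (Φ (z - x)) ≤ δ := by
        rw [map_sub, inner_sub_right]
        linarith
      have h11 : ‖Φ (z - x)‖ ≤ ‖Φ‖ * 2 := by
        refine (Φ.le_opNorm _).trans (mul_le_mul_of_nonneg_left ?_ (norm_nonneg _))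
        linarith [norm_sub_le z x]
      have h12 : ‖Φ (z - x)‖ ^ 2 ≤ (‖Φ‖ * 2) ^ 2 := pow_le_pow_left₀ (norm_nonneg _) h11 2
      rw [h7, norm_add_sq_real]
      push_cast
      nlinarith

theorem Cof.exists_euclid {S : Submodule ℝ X} (hS : Cof S) :
    ∃ (n : ℕ) (Φ : X →L[ℝ] EuclideanSpace ℝ (Fin n)), ∀ ε : ℝ, 0 < ε → ∃ δ : ℝ, 0 < δ ∧
      ∀ u, ‖Φ u‖ < δ → ∃ y ∈ S, ‖u - y‖ < ε := by
  have : IsClosed (S : Set X) := hS.1
  have := hS.2
  let e := toEuclidean (E := X ⧸ S)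
  refine ⟨Module.finrank ℝ (X ⧸ S), e.toContinuousLinearMap.comp S.mkQL, fun ε hε => ?_⟩
  obtain ⟨δ, hδ, h⟩ := Metric.continuous_iff.1 e.symm.continuous 0 (ε / 2) (half_pos hε)
  refine ⟨δ, hδ, fun u hu => ?_⟩
  have h1 := h (e (S.mkQL u)) (by simpa using hu)
  rw [e.symm_apply_apply, map_zero, dist_zero_right] at h1
  obtain ⟨m, hm, hm'⟩ := Submodule.Quotient.norm_mk_lt (S.mkQL u) (half_pos hε)
  refine ⟨u - m, ?_, ?_⟩
  · rw [← Submodule.Quotient.eq]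
    exact hm.symm
  · simp only [sub_sub_cancel]
    linarith

theorem norm_sub_normalize_le (z : X) (r : ℝ) (hz : z ≠ 0) :
    ‖z - (r * ‖z‖⁻¹) • z‖ = |‖z‖ - r| := by
  have h : 0 < ‖z‖ := norm_pos_iff.2 hz
  have : z - (r * ‖z‖⁻¹) • z = ((‖z‖ - r) * ‖z‖⁻¹) • z := by
    rw [sub_mul, mul_inv_cancel₀ h.ne', sub_smul, one_smul]
  rw [this, norm_smul, norm_mul, norm_inv, norm_norm, mul_assoc, inv_mul_cancel₀ h.ne', mul_one,
    Real.norm_eq_abs]

theorem dp_main (hD : HasDaugavetProperty X) (x : X) (hx : ‖x‖ = 1) {S : Submodule ℝ X}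
    (hS : Cof S) {ε : ℝ} (hε : 0 < ε) :
    ∃ y ∈ S, ‖y‖ = 1 ∧ ∃ z : X, ‖z‖ = 1 ∧ ‖x + (2 : ℝ) • y - z‖ < ε := by
  obtain ⟨d, Φ, hΦ⟩ := hS.exists_euclid
  set η := min (ε / 5) (1 / 4) with hη
  have hη0 : 0 < η := lt_min (by positivity) (by norm_num)
  have hη1 : η ≤ ε / 5 := min_le_left _ _
  have hη2 : η ≤ 1 / 4 := min_le_right _ _
  obtain ⟨δ, hδ, hΦ⟩ := hΦ η hη0
  obtain ⟨n, hn⟩ := exists_nat_gt ((2 * η + 4 * ‖Φ‖ ^ 2) / δ ^ 2)
  have hn0 : (0 : ℝ) < n := lt_of_le_of_lt (by positivity) hn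
  obtain ⟨Z, h1, h2, h3⟩ := dp_greedy hD Φ x hx n (by exact_mod_cast hn0) hη0 (by linarith) n
  set z0 := (n : ℝ)⁻¹ • Z with hz0
  have e1 : z0 - x = (n : ℝ)⁻¹ • (Z - (n : ℝ) • x) := by
    rw [smul_sub, smul_smul, inv_mul_cancel₀ hn0.ne', one_smul]
  have h4 : ‖z0‖ ≤ 1 := by
    rw [hz0, norm_smul, norm_inv, Real.norm_natCast, inv_mul_le_iff₀ hn0, mul_one]
    exact h1
  have h5 : 2 - η ≤ ‖z0 - x‖ := by
    rw [e1, norm_smul, norm_inv, Real.norm_natCast, le_inv_mul_iff₀ hn0]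
    linarith
  have h6 : ‖Φ (z0 - x)‖ < δ := by
    rw [e1, map_smul, norm_smul, norm_inv, Real.norm_natCast, inv_mul_lt_iff₀ hn0]
    refine lt_of_pow_lt_pow_left₀ 2 (by positivity) (h3.trans_lt ?_)
    rw [div_lt_iff₀ (by positivity)] at hn
    rw [mul_pow, pow_two (n : ℝ), mul_assoc]
    exact mul_lt_mul_of_pos_left hn hn0
  obtain ⟨y0, hy0, h7⟩ := hΦ _ h6
  have h8 : ‖z0 - x‖ ≤ 2 := by linarith [norm_sub_le z0 x]
  have h9 : 1 - η ≤ ‖z0‖ := by linarith [norm_sub_le z0 x]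
  have h10 : |‖y0‖ - ‖z0 - x‖| < η := by
    refine lt_of_le_of_lt (abs_norm_sub_norm_le _ _) ?_
    rwa [norm_sub_rev]
  rw [abs_lt] at h10
  have hy00 : 0 < ‖y0‖ := by linarith [h10.1]
  have hz00 : 0 < ‖z0‖ := by linarith
  refine ⟨‖y0‖⁻¹ • y0, S.smul_mem _ hy0, ?_, ‖z0‖⁻¹ • z0, ?_, ?_⟩
  · rw [norm_smul, norm_inv, norm_norm, inv_mul_cancel₀ hy00.ne']
  · rw [norm_smul, norm_inv, norm_norm, inv_mul_cancel₀ hz00.ne']
  · have a1 := norm_sub_normalize_le y0 2 (norm_pos_iff.1 hy00)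
    have a2 := norm_sub_normalize_le z0 1 (norm_pos_iff.1 hz00)
    have e2 : x + (2 : ℝ) • ‖y0‖⁻¹ • y0 - ‖z0‖⁻¹ • z0 =
        (z0 - (1 * ‖z0‖⁻¹) • z0) - (y0 - (2 * ‖y0‖⁻¹) • y0) - (z0 - x - y0) := by
      module
    rw [e2]
    have b1 := norm_sub_le ((z0 - (1 * ‖z0‖⁻¹) • z0) - (y0 - (2 * ‖y0‖⁻¹) • y0)) (z0 - x - y0)
    have b2 := norm_sub_le (z0 - (1 * ‖z0‖⁻¹) • z0) (y0 - (2 * ‖y0‖⁻¹) • y0)
    have c1 : |‖y0‖ - 2| ≤ 2 * η := by
      rw [abs_le]; constructor <;> linarith [h10.1, h10.2]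
    have c2 : |‖z0‖ - 1| ≤ η := by
      rw [abs_le]; constructor <;> linarith
    linarith

theorem dp_upper (hD : HasDaugavetProperty X) (x : X) (hx : ‖x‖ = 1) {S : Submodule ℝ X}
    (hS : Cof S) {t η : ℝ} (ht : 0 < t) (hη : 0 < η) :
    ∃ y ∈ S, ‖y‖ = 1 ∧ ‖x + t • y‖ ≤ max 1 (t - 1) + η ∧ ‖x - t • y‖ ≤ 1 + t := by
  obtain ⟨y, hy, hy1, z, hz, h⟩ := dp_main hD x hx hS (ε := 2 * η / t) (by positivity)
  refine ⟨y, hy, hy1, ?_, ?_⟩
  · have e : x + t • y = (1 - t / 2) • x + (t / 2) • z + (t / 2) • (x + (2 : ℝ) • y - z) := by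
      module
    rw [e]
    refine (norm_add₃_le).trans ?_
    rw [norm_smul, norm_smul, norm_smul, hx, hz, Real.norm_eq_abs, Real.norm_eq_abs,
      abs_of_pos (half_pos ht)]
    have h1 : t / 2 * ‖x + (2 : ℝ) • y - z‖ ≤ η := by
      refine (mul_le_mul_of_nonneg_left h.le (half_pos ht).le).trans (le_of_eq ?_)
      field_simp
    have h2 : |1 - t / 2| + t / 2 ≤ max 1 (t - 1) := by
      rcases abs_choice (1 - t / 2) with h | h <;> rw [h]
      · linarith [le_max_left 1 (t - 1)]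
      · linarith [le_max_right 1 (t - 1)]
    linarith
  · refine (norm_sub_le _ _).trans ?_
    rw [norm_smul, hx, hy1, Real.norm_eq_abs, abs_of_pos ht, mul_one]

end DP

section L1

variable {Ω : Type} [MeasurableSpace Ω] {P : Measure Ω}

theorem exists_mul_functional (s : Ω → ℝ) (hs : Measurable s) (hb : ∀ z, |s z| ≤ 1) :
    ∃ ψ : Lp ℝ 1 P →L[ℝ] ℝ, ∀ f, ψ f = ∫ z, s z * f z ∂P := by
  have hint : ∀ f : Lp ℝ 1 P, Integrable (fun z => s z * f z) P := fun f =>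
    (L1.integrable_coeFn f).bdd_mul hs.aestronglyMeasurable (Eventually.of_forall hb)
  refine ⟨LinearMap.mkContinuous
    { toFun := fun f => ∫ z, s z * f z ∂P
      map_add' := fun f g => ?_
      map_smul' := fun c f => ?_ } 1 (fun f => ?_), fun f => rfl⟩
  · rw [← integral_add (hint f) (hint g)]
    refine integral_congr_ae ?_
    filter_upwards [Lp.coeFn_add f g] with z hz
    rw [hz, Pi.add_apply, mul_add]
  · rw [RingHom.id_apply, smul_eq_mul, ← integral_const_mul]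
    refine integral_congr_ae ?_
    filter_upwards [Lp.coeFn_smul c f] with z hz
    rw [hz, Pi.smul_apply, smul_eq_mul]
    ring
  · rw [one_mul, L1.norm_eq_integral_norm]
    refine norm_integral_le_of_norm_le (L1.integrable_coeFn f).norm (Eventually.of_forall fun z => ?_)
    rw [norm_mul]
    exact mul_le_of_le_one_left (norm_nonneg _) (hb z)

theorem l1_lower [IsProbabilityMeasure P] {E : Submodule ℝ (Lp ℝ 1 P)}
    (htb : UnitBallTotallyBoundedInMeasure P E) (x : E) {t η : ℝ} (ht : 0 < t) (hη : 0 < η) :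
    ∃ S : Submodule ℝ E, Cof S ∧ ∀ y ∈ S, ‖y‖ = 1 →
      ‖x‖ + t / 2 - η ≤ (‖x + t • y‖ + ‖x - t • y‖) / 2 := by
  classical
  have hxi := (L1.integrable_coeFn (x : Lp ℝ 1 P)).norm
  have h1 := (hxi.tendsto_setIntegral_nhds_zero (l := Filter.comap P (𝓝 0)) (s := id)
    tendsto_comap).eventually (gt_mem_nhds (half_pos hη))
  rw [eventually_comap, ENNReal.nhds_zero_basis.eventually_iff] at h1
  obtain ⟨δ0, hδ0, h1⟩ := h1
  obtain ⟨δ1, hδ1, hδ10⟩ : ∃ δ1 : ℝ, 0 < δ1 ∧ ENNReal.ofReal δ1 ≤ δ0 := by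
    by_cases h : δ0 = ⊤
    · exact ⟨1, one_pos, h ▸ le_top⟩
    · exact ⟨δ0.toReal, ENNReal.toReal_pos hδ0.ne' h, (ENNReal.ofReal_toReal h).le⟩
  obtain ⟨A, -, hA⟩ := htb (min δ1 (η / (2 * t))) (lt_min hδ1 (by positivity))
  let sg : Lp ℝ 1 P → Ω → ℝ := fun g z => if 0 ≤ g z then 1 else -1
  have hsgm : ∀ g, Measurable (sg g) := fun g =>
    Measurable.ite (measurableSet_le measurable_const (Lp.stronglyMeasurable g).measurable)
      measurable_const measurable_const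
  have hsgb : ∀ g z, |sg g z| ≤ 1 := by
    intro g z
    simp only [sg]
    split_ifs <;> simp
  choose ψ hψ using fun g => exists_mul_functional (P := P) (sg g) (hsgm g) (hsgb g)
  obtain ⟨S, hS, hSy⟩ := exists_cof_of_finset (X := E) A (fun g => (ψ g).comp E.subtypeL)
  refine ⟨S, hS, fun y hy hy1 => ?_⟩
  obtain ⟨g, hg, hd⟩ := hA y y.2 hy1.le
  obtain ⟨a, ⟨ha0, ha⟩, had⟩ := exists_lt_of_csInf_lt (by
    refine ⟨2, by norm_num, ?_⟩
    exact lt_of_le_of_lt prob_le_one (by simp)) hd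
  rw [lt_min_iff] at had
  set B := {z | a < |((y : Lp ℝ 1 P) : Ω → ℝ) z - (g : Ω → ℝ) z|} with hB
  have hBm : MeasurableSet B :=
    measurableSet_lt measurable_const (continuous_abs.measurable.comp
      ((Lp.stronglyMeasurable _).measurable.sub (Lp.stronglyMeasurable g).measurable))
  have h2 : ∫ z in B, ‖((x : Lp ℝ 1 P) : Ω → ℝ) z‖ ∂P < η / 2 :=
    h1 (ha.trans_le ((ENNReal.ofReal_le_ofReal had.1.le).trans hδ10)) B rfl
  have h3 : ∫ z, sg g z * ((y : Lp ℝ 1 P) : Ω → ℝ) z ∂P = 0 := by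
    rw [← hψ]
    exact hSy y hy g hg
  have hyi := (L1.integrable_coeFn (y : Lp ℝ 1 P))
  have hsi : Integrable (fun z => sg g z * ((y : Lp ℝ 1 P) : Ω → ℝ) z) P :=
    hyi.bdd_mul (hsgm g).aestronglyMeasurable (Eventually.of_forall (hsgb g))
  rw [Submodule.coe_norm, L1.norm_eq_integral_norm] at hy1
  simp only [Submodule.coe_norm, Submodule.coe_add, Submodule.coe_sub, Submodule.coe_smul,
    L1.norm_eq_integral_norm]
  rw [← integral_indicator hBm] at h2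
  have hxB := hxi.indicator hBm
  have h4 : ∫ z, (‖((x : Lp ℝ 1 P) : Ω → ℝ) z‖ - B.indicator (fun z => ‖((x : Lp ℝ 1 P) : Ω → ℝ) z‖) z
      + t / 2 * (‖((y : Lp ℝ 1 P) : Ω → ℝ) z‖ - 2 * a - sg g z * ((y : Lp ℝ 1 P) : Ω → ℝ) z)) ∂P ≤
      ∫ z, (‖((x : Lp ℝ 1 P) + t • (y : Lp ℝ 1 P) : Lp ℝ 1 P) z‖ +
        ‖((x : Lp ℝ 1 P) - t • (y : Lp ℝ 1 P) : Lp ℝ 1 P) z‖) / 2 ∂P := by
    refine integral_mono_ae ((hxi.sub hxB).add (((hyi.norm.sub (integrable_const _)).sub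
      hsi).const_mul _)) (((L1.integrable_coeFn _).norm.add (L1.integrable_coeFn _).norm).div_const _)
      ?_
    filter_upwards [Lp.coeFn_add (x : Lp ℝ 1 P) (t • (y : Lp ℝ 1 P)),
      Lp.coeFn_sub (x : Lp ℝ 1 P) (t • (y : Lp ℝ 1 P)), Lp.coeFn_smul t (y : Lp ℝ 1 P)]
      with z e1 e2 e3
    rw [e1, e2, Pi.add_apply, Pi.sub_apply, e3, Pi.smul_apply, smul_eq_mul]
    simp only [Real.norm_eq_abs]
    set u := ((x : Lp ℝ 1 P) : Ω → ℝ) z
    set v := ((y : Lp ℝ 1 P) : Ω → ℝ) z with hv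
    have hsv : -|v| ≤ sg g z * v := by
      have := neg_abs_le (sg g z * v)
      rw [abs_mul] at this
      nlinarith [hsgb g z, abs_nonneg v]
    by_cases hz : z ∈ B
    · rw [Set.indicator_of_mem hz]
      have := abs_sub (u + t * v) (u - t * v)
      rw [show u + t * v - (u - t * v) = 2 * t * v by ring, abs_mul,
        abs_of_pos (by positivity : 0 < 2 * t)] at this
      nlinarith
    · rw [Set.indicator_of_notMem hz]
      have := abs_add_le (u + t * v) (u - t * v)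
      rw [show u + t * v + (u - t * v) = 2 * u by ring, abs_mul, abs_two] at this
      have hz' : |v - g z| ≤ a := not_lt.1 hz
      rw [abs_le] at hz'
      have h5 : |v| - 2 * a - sg g z * v ≤ 0 := by
        simp only [sg]
        split_ifs with h
        · rcases abs_choice v with h' | h' <;> rw [h'] <;> linarith [hz'.1, hz'.2]
        · rcases abs_choice v with h' | h' <;> rw [h'] <;> linarith [hz'.1, hz'.2]
      nlinarith
  have i1 : Integrable (fun z => ‖((x : Lp ℝ 1 P) : Ω → ℝ) z‖ -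
      B.indicator (fun z => ‖((x : Lp ℝ 1 P) : Ω → ℝ) z‖) z) P := hxi.sub hxB
  have i2 : Integrable (fun z => ‖((y : Lp ℝ 1 P) : Ω → ℝ) z‖ - 2 * a) P :=
    hyi.norm.sub (integrable_const _)
  have i3 : Integrable (fun z => ‖((y : Lp ℝ 1 P) : Ω → ℝ) z‖ - 2 * a -
      sg g z * ((y : Lp ℝ 1 P) : Ω → ℝ) z) P := i2.sub hsi
  rw [integral_add i1 (i3.const_mul _),
    integral_sub hxi hxB, integral_const_mul, integral_sub i2 hsi,
    integral_sub hyi.norm (integrable_const _), h3, hy1, integral_div,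
    integral_add (L1.integrable_coeFn _).norm (L1.integrable_coeFn _).norm] at h4
  simp only [integral_const, probReal_univ, smul_eq_mul, one_mul] at h4
  have h6 : t * a ≤ η / 2 := by
    have := had.2
    rw [lt_div_iff₀ (by positivity)] at this
    linarith
  linarith

end L1

end Crest.Agent.AUC
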