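import Mathlib
import Crest.Prelude.Def_Diamond
import Crest.Agent.AUC.TestSys

/-! Distortion of countably branching diamonds. -/

set_option autoImplicit false

namespace Crest.Agent.AUC

open Crest.AnalysisR Filter Topology

theorem diamond_adj_iff (k : ℕ) (u v : DiamondVertex k) : (diamondGraph k).Adj u v ↔
    u ≠ v ∧ ((∃ e, diamondSrc k e = u ∧ diamondTgt k e = v) ∨
      ∃ e, diamondSrc k e = v ∧ diamondTgt k e = u) := SimpleGraph.fromRel_adj _ _ _

theorem adj_src (k : ℕ) (e : DiamondEdge k) (i : ℕ) :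
    (diamondGraph (k + 1)).Adj (Sum.inl (diamondSrc k e)) (Sum.inr (e, i)) :=
  (diamond_adj_iff _ _ _).2 ⟨Sum.inl_ne_inr, Or.inl ⟨(e, i, false), rfl, rfl⟩⟩

theorem adj_tgt (k : ℕ) (e : DiamondEdge k) (i : ℕ) :
    (diamondGraph (k + 1)).Adj (Sum.inr (e, i)) (Sum.inl (diamondTgt k e)) :=
  (diamond_adj_iff _ _ _).2 ⟨Sum.inr_ne_inl, Or.inl ⟨(e, i, true), rfl, rfl⟩⟩

theorem diamond_connected : ∀ k, (diamondGraph k).Connected
  | 0 => by
    have h : (diamondGraph 0).Adj false true :=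
      (diamond_adj_iff 0 _ _).2 ⟨Bool.false_ne_true, Or.inl ⟨(), rfl, rfl⟩⟩
    have : Nonempty (DiamondVertex 0) := ⟨false⟩
    refine ⟨fun u v => ?_⟩
    cases u <;> cases v
    · rfl
    · exact h.reachable
    · exact h.symm.reachable
    · rfl
  | k + 1 => by
    have ih := diamond_connected k
    have h1 : ∀ u v : DiamondVertex k, (diamondGraph (k + 1)).Reachable (Sum.inl u) (Sum.inl v) := by
      intro u v
      obtain ⟨p⟩ := ih.preconnected u v
      induction p with
      | nil => rfl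
      | cons h _ ihp =>
        refine SimpleGraph.Reachable.trans ?_ ihp
        obtain ⟨-, ⟨e, rfl, rfl⟩ | ⟨e, rfl, rfl⟩⟩ := (diamond_adj_iff _ _ _).1 h
        · exact (adj_src k e 0).reachable.trans (adj_tgt k e 0).reachable
        · exact ((adj_src k e 0).reachable.trans (adj_tgt k e 0).reachable).symm
    obtain ⟨u0⟩ := ih.nonempty
    have : Nonempty (DiamondVertex (k + 1)) := ⟨Sum.inl u0⟩
    have h2 : ∀ w : DiamondVertex (k + 1), (diamondGraph (k + 1)).Reachable (Sum.inl u0) w := by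
      rintro (w | ⟨e, i⟩)
      · exact h1 _ _
      · exact (h1 _ _).trans (adj_src k e i).reachable
    exact ⟨fun u v => (h2 u).symm.trans (h2 v)⟩

theorem dist_edge_le (k : ℕ) (e : DiamondEdge k) :
    diamondDist k (diamondSrc k e) (diamondTgt k e) ≤ 1 := by
  unfold diamondDist
  by_cases h : diamondSrc k e = diamondTgt k e
  · rw [h]; simp
  · exact (SimpleGraph.dist_eq_one_iff_adj.2
      ((diamond_adj_iff _ _ _).2 ⟨h, Or.inl ⟨e, rfl, rfl⟩⟩)).le

theorem le_dist_of_lipschitz {V : Type*} {G : SimpleGraph V} (hG : G.Connected) (g : V → ℕ)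
    (hg : ∀ a b, G.Adj a b → g b ≤ g a + 1) (u v : V) : g v ≤ g u + G.dist u v := by
  obtain ⟨p, hp⟩ := hG.exists_walk_length_eq_dist u v
  rw [← hp]
  clear hp
  induction p with
  | nil => simp
  | cons h _ ih =>
    have := hg _ _ h
    simp only [SimpleGraph.Walk.length_cons]
    omega

theorem two_mul_dist_le (k : ℕ) (u v : DiamondVertex k) :
    2 * diamondDist k u v ≤ diamondDist (k + 1) (Sum.inl u) (Sum.inl v) := by
  let g : DiamondVertex (k + 1) → ℕ := Sum.elim (fun w => 2 * diamondDist k u w)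
    (fun p => diamondDist k u (diamondSrc k p.1) + diamondDist k u (diamondTgt k p.1))
  have key : ∀ e, diamondDist k u (diamondSrc k e) ≤ diamondDist k u (diamondTgt k e) + 1 ∧
      diamondDist k u (diamondTgt k e) ≤ diamondDist k u (diamondSrc k e) + 1 := by
    intro e
    have h := dist_edge_le k e
    unfold diamondDist at *
    have h1 := (diamond_connected k).dist_triangle (u := u) (v := diamondSrc k e)
      (w := diamondTgt k e)
    have h2 := (diamond_connected k).dist_triangle (u := u) (v := diamondTgt k e)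
      (w := diamondSrc k e)
    rw [SimpleGraph.dist_comm (u := diamondTgt k e)] at h2
    omega
  have h := le_dist_of_lipschitz (diamond_connected (k + 1)) g (by
    intro a b hab
    obtain ⟨-, ⟨⟨e, i, c⟩, rfl, rfl⟩ | ⟨⟨e, i, c⟩, rfl, rfl⟩⟩ := (diamond_adj_iff _ _ _).1 hab <;>
    cases c <;> simp only [diamondSrc, diamondTgt, g, cond_true, cond_false, Sum.elim_inl,
      Sum.elim_inr] <;> have := key e <;> omega) (Sum.inl u) (Sum.inl v)
  simp only [g, Sum.elim_inl] at h
  have h0 : diamondDist k u u = 0 := SimpleGraph.dist_self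
  rw [h0] at h
  simpa [diamondDist] using h

theorem two_le_dist_mid (k : ℕ) (e : DiamondEdge k) {i l : ℕ} (h : i ≠ l) :
    2 ≤ diamondDist (k + 1) (Sum.inr (e, i)) (Sum.inr (e, l)) := by
  refine (diamond_connected (k + 1)).one_lt_dist_of_ne_of_not_adj ?_ ?_
  · intro h'
    have := Sum.inr_injective h'
    exact h (congrArg Prod.snd this)
  · intro hab
    obtain ⟨-, ⟨⟨e', i', c⟩, h1, h2⟩ | ⟨⟨e', i', c⟩, h1, h2⟩⟩ := (diamond_adj_iff _ _ _).1 hab <;>
    cases c
    · exact Sum.inl_ne_inr h1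
    · exact Sum.inl_ne_inr h2
    · exact Sum.inl_ne_inr h1
    · exact Sum.inl_ne_inr h2

variable {X : Type*} [NormedAddCommGroup X] [NormedSpace ℝ X]

theorem PropK.fork (hK : PropK X) (a b : X) (z : ℕ → X) {s L : ℝ} (hs : 0 < s)
    (ha : ∀ i, ‖a - z i‖ ≤ L) (hb : ∀ i, ‖z i - b‖ ≤ L) (hz : ∀ i l, i ≠ l → 2 * s ≤ ‖z i - z l‖) :
    ‖a - b‖ ^ 2 ≤ 4 * L ^ 2 - s ^ 2 := by
  set x := (1 / 2 : ℝ) • (a - b) with hx
  have hL : 0 ≤ L := (norm_nonneg _).trans (ha 0)
  have key : ∀ ε : ℝ, 0 < ε → ε < s → ‖x‖ ^ 2 + (s - ε) ^ 2 / 4 ≤ (L + 2 * ε) ^ 2 := by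
    intro ε hε hεs
    obtain ⟨S, hS, h⟩ := hK x ε hε
    obtain ⟨i, l, hil, y, hy, hy'⟩ := hS.exists_pair_near (fun i => (1 / 2 : ℝ) • (z i - b))
      (C := L) (fun i => by
        rw [norm_smul]
        have := hb i
        norm_num
        linarith) hε
    have h1 := h y hy
    set d := (1 / 2 : ℝ) • (z i - b) - (1 / 2 : ℝ) • (z l - b) - y with hd
    have e1 : x + y = (1 / 2 : ℝ) • (z i - b) + (1 / 2 : ℝ) • (a - z l) - d := by
      rw [hx, hd]; module
    have e2 : x - y = (1 / 2 : ℝ) • (z l - b) + (1 / 2 : ℝ) • (a - z i) + d := by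
      rw [hx, hd]; module
    have e3 : (1 / 2 : ℝ) • (z i - z l) = y + d := by
      rw [hd]; module
    have n1 : ‖x + y‖ ≤ L + ε := by
      rw [e1]
      refine (norm_sub_le _ _).trans ?_
      have := norm_add_le ((1 / 2 : ℝ) • (z i - b)) ((1 / 2 : ℝ) • (a - z l))
      rw [norm_smul, norm_smul] at this
      norm_num at this ⊢
      linarith [ha l, hb i]
    have n2 : ‖x - y‖ ≤ L + ε := by
      rw [e2]
      refine (norm_add_le _ _).trans ?_
      have := norm_add_le ((1 / 2 : ℝ) • (z l - b)) ((1 / 2 : ℝ) • (a - z i))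
      rw [norm_smul, norm_smul] at this
      norm_num at this ⊢
      linarith [ha i, hb l]
    have n3 : s - ε ≤ ‖y‖ := by
      have := norm_add_le y d
      rw [← e3, norm_smul] at this
      norm_num at this
      linarith [hz i l hil]
    have n4 : Real.sqrt (‖x‖ ^ 2 + ‖y‖ ^ 2 / 4) ≤ L + 2 * ε := by linarith
    have n5 := (Real.sqrt_le_left (by positivity)).1 n4
    have n6 : (s - ε) ^ 2 ≤ ‖y‖ ^ 2 := pow_le_pow_left₀ (by linarith) n3 2
    linarith
  have hlim : ‖x‖ ^ 2 + (s - 0) ^ 2 / 4 ≤ (L + 2 * 0) ^ 2 := by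
    have c1 : ContinuousAt (fun ε : ℝ => ‖x‖ ^ 2 + (s - ε) ^ 2 / 4) 0 := by fun_prop
    have c2 : ContinuousAt (fun ε : ℝ => (L + 2 * ε) ^ 2) 0 := by fun_prop
    refine le_of_tendsto_of_tendsto (b := 𝓝[>] 0) (c1.tendsto.mono_left nhdsWithin_le_nhds)
      (c2.tendsto.mono_left nhdsWithin_le_nhds) ?_
    filter_upwards [Ioo_mem_nhdsGT hs] with ε hε
    exact key ε hε.1 hε.2
  rw [hx, norm_smul] at hlim
  norm_num at hlim
  linarith

theorem PropK.diamond (hK : PropK X) : ∀ (k : ℕ) (f : DiamondVertex k → X) (s L : ℝ), 0 < s →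
    (∀ u v, s * (diamondDist k u v : ℝ) ≤ ‖f u - f v‖) →
    (∀ e, ‖f (diamondSrc k e) - f (diamondTgt k e)‖ ≤ L) → s ^ 2 * (1 + (k : ℝ) / 4) ≤ L ^ 2
  | 0, f, s, L, hs, h1, h2 => by
    have h : diamondDist 0 false true = 1 := SimpleGraph.dist_eq_one_iff_adj.2
      ((diamond_adj_iff 0 _ _).2 ⟨Bool.false_ne_true, Or.inl ⟨(), rfl, rfl⟩⟩)
    have h3 := h1 false true
    rw [h] at h3
    have h4 : ‖f false - f true‖ ≤ L := h2 ()
    simp only [Nat.cast_one, mul_one, Nat.cast_zero, zero_div, add_zero] at h3 ⊢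
    exact pow_le_pow_left₀ hs.le (h3.trans h4) 2
  | k + 1, f, s, L, hs, h1, h2 => by
    have hedge : ∀ e, ‖f (Sum.inl (diamondSrc k e)) - f (Sum.inl (diamondTgt k e))‖ ^ 2
        ≤ 4 * L ^ 2 - s ^ 2 := by
      intro e
      refine hK.fork _ _ (fun i => f (Sum.inr (e, i))) hs (fun i => h2 (e, i, false))
        (fun i => h2 (e, i, true)) (fun i l hil => le_trans ?_ (h1 _ _))
      have : (2 : ℝ) ≤ diamondDist (k + 1) (Sum.inr (e, i)) (Sum.inr (e, l)) := by
        exact_mod_cast two_le_dist_mid k e hil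
      nlinarith
    have ih := PropK.diamond hK k (fun u => f (Sum.inl u)) (2 * s) (Real.sqrt (4 * L ^ 2 - s ^ 2))
      (by positivity) (fun u v => by
        refine le_trans ?_ (h1 _ _)
        have : (2 * diamondDist k u v : ℝ) ≤ diamondDist (k + 1) (Sum.inl u) (Sum.inl v) := by
          exact_mod_cast two_mul_dist_le k u v
        nlinarith) (fun e => Real.le_sqrt_of_sq_le (hedge e))
    have hpos : 0 < (2 * s) ^ 2 * (1 + (k : ℝ) / 4) := by positivity
    have h0 : 0 ≤ 4 * L ^ 2 - s ^ 2 := by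
      by_contra h
      rw [Real.sqrt_eq_zero_of_nonpos (not_le.1 h).le] at ih
      linarith
    rw [Real.sq_sqrt h0] at ih
    push_cast
    linarith

theorem PropK.distortion {X : Type} [NormedAddCommGroup X] [NormedSpace ℝ X] [CompleteSpace X]
    (hK : PropK X) (k : ℕ) (f : DiamondVertex k → X) (D : ℝ)
    (h : (mkB X).HasDistortionLE k f D) : 1 + (k : ℝ) / 4 ≤ D ^ 2 := by
  obtain ⟨s, hs, h⟩ := h
  have := hK.diamond k f s (|D| * s) hs (fun u v => (h u v).1) (fun e => by
    refine (h _ _).2.trans ?_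
    have h1 : (diamondDist k (diamondSrc k e) (diamondTgt k e) : ℝ) ≤ 1 := by
      exact_mod_cast dist_edge_le k e
    calc D * s * (diamondDist k (diamondSrc k e) (diamondTgt k e) : ℝ)
        ≤ |D| * s * (diamondDist k (diamondSrc k e) (diamondTgt k e) : ℝ) := by
          gcongr; exact le_abs_self D
      _ ≤ |D| * s := mul_le_of_le_one_right (by positivity) h1)
  rw [mul_pow, sq_abs, mul_comm (D ^ 2)] at this
  exact le_of_mul_le_mul_left this (by positivity)

end Crest.Agent.AUC
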