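import Mathlib
import Crest.Prelude.Def_TreeProducts
import Crest.Agent.AUC.Basic

/-! Path products of independent multipliers in `L¹`. -/

set_option autoImplicit false

namespace Crest.Agent.AUC

open Crest.AnalysisR Crest.AnalysisR.TreeProduct MeasureTheory ProbabilityTheory

/-- non-root vertices on the root path -/
def pathSet : List ℕ → Finset (List ℕ)
  | [] => ∅
  | a :: v => insert (a :: v) (pathSet v)

theorem length_le_of_mem_pathSet : ∀ (v u : List ℕ), u ∈ pathSet v → u.length ≤ v.length
  | [], u, h => by simp [pathSet] at h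
  | a :: v, u, h => by
    simp only [pathSet, Finset.mem_insert] at h
    rcases h with rfl | h
    · exact le_rfl
    · exact (length_le_of_mem_pathSet v u h).trans (by simp)

variable {Ω : Type} [MeasurableSpace Ω]

omit [MeasurableSpace Ω] in
theorem pathProduct_eq (W : List ℕ → Ω → ℝ) : ∀ (v : List ℕ) (z : Ω),
    pathProduct W v z = ∏ u ∈ pathSet v, W u z
  | [], z => by simp [pathProduct, pathSet]
  | a :: v, z => by
    have : (a :: v) ∉ pathSet v := fun h => by
      have := length_le_of_mem_pathSet v _ h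
      simp at this
    simp only [pathProduct, pathSet]
    rw [Finset.prod_insert this, pathProduct_eq W v z, mul_comm]

variable {ν : Measure ℝ} {μ : Measure Ω} {W : List ℕ → Ω → ℝ}

theorem measurable_pathProduct (hW : IsRealization ν μ W) : ∀ v, Measurable (pathProduct W v)
  | [] => measurable_const
  | a :: v => (measurable_pathProduct hW v).mul (hW.1 (a :: v))

theorem indep_pathProduct (hW : IsRealization ν μ W) (v : List ℕ) (B : Finset ℕ) :
    IndepFun (pathProduct W v) (fun z => ∑ n ∈ B, (W (n :: v) z - 1)) μ := by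
  classical
  have hd : Disjoint (pathSet v) (B.image (· :: v)) := by
    rw [Finset.disjoint_left]
    intro u hu hu'
    obtain ⟨n, -, rfl⟩ := Finset.mem_image.1 hu'
    have := length_le_of_mem_pathSet v _ hu
    simp at this
  have h := (hW.2.1.indepFun_finset _ _ hd hW.1).comp
    (φ := fun x : (pathSet v) → ℝ => ∏ i, x i)
    (ψ := fun x : (B.image (· :: v)) → ℝ => ∑ i, (x i - 1)) (by fun_prop) (by fun_prop)
  convert h using 1
  · ext z
    simp only [Function.comp]
    rw [pathProduct_eq, Finset.prod_coe_sort (pathSet v) (fun u => W u z)]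
  · ext z
    simp only [Function.comp]
    rw [Finset.sum_coe_sort (B.image (· :: v)) (fun u => W u z - 1), Finset.sum_image]
    intro x _ y _ hxy
    simpa using hxy

theorem integral_abs_le_sqrt [IsProbabilityMeasure μ] {Z : Ω → ℝ} (hZ : MemLp Z 2 μ)
    (h0 : ∫ z, Z z ∂μ = 0) : ∫ z, |Z z| ∂μ ≤ Real.sqrt (variance Z μ) := by
  have h1 := variance_eq_sub hZ
  have h2 := variance_eq_sub hZ.abs
  have h3 := variance_nonneg (|Z|) μ
  apply Real.le_sqrt_of_sq_le
  rw [h1, h0]
  rw [h2] at h3
  have : ∫ z, (|Z| ^ 2) z ∂μ = ∫ z, (Z ^ 2) z ∂μ := by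
    congr 1
    ext z
    simp
  rw [this] at h3
  simp only [Pi.abs_apply] at h3
  linarith

section Main

variable [IsProbabilityMeasure ν] [IsProbabilityMeasure μ]

omit [IsProbabilityMeasure ν] [IsProbabilityMeasure μ] in
theorem integral_comp_W (hW : IsRealization ν μ W) (a : ℕ) (v : List ℕ) {g : ℝ → ℝ}
    (hg : Measurable g) : ∫ z, g (W (a :: v) z) ∂μ = ∫ x, g x ∂ν := by
  rw [← hW.2.2 (a :: v) (by simp), integral_map (hW.1 _).aemeasurable hg.aestronglyMeasurable]

omit [IsProbabilityMeasure ν] [IsProbabilityMeasure μ] in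
theorem memLp_W (hm2 : Integrable (fun x : ℝ => x ^ 2) ν) (hW : IsRealization ν μ W) (a : ℕ)
    (v : List ℕ) : MemLp (W (a :: v)) 2 μ := by
  rw [memLp_two_iff_integrable_sq (hW.1 _).aestronglyMeasurable]
  rw [← hW.2.2 (a :: v) (by simp)] at hm2
  exact hm2.comp_measurable (hW.1 _)

theorem integral_abs_id (hpos : ν (Set.Ioi 0) = 1) (hmean : ∫ x, x ∂ν = 1) :
    ∫ x, |x| ∂ν = 1 := by
  rw [← hmean]
  apply integral_congr_ae
  have : ∀ᵐ x ∂ν, x ∈ Set.Ioi (0 : ℝ) := by
    rw [ae_iff]
    exact (prob_compl_eq_zero_iff measurableSet_Ioi).2 hpos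
  filter_upwards [this] with x hx
  exact abs_of_pos hx

theorem theta_pos (hnc : ∀ c : ℝ, ν ≠ Measure.dirac c) (hm2 : Integrable (fun x : ℝ => x ^ 2) ν) :
    0 < ∫ x, |x - 1| ∂ν := by
  have hi : Integrable (fun x : ℝ => x) ν := by
    have : MemLp (fun x : ℝ => x) 2 ν :=
      (memLp_two_iff_integrable_sq measurable_id.aestronglyMeasurable).2 hm2
    exact this.integrable (by norm_num)
  have hi' : Integrable (fun x : ℝ => |x - 1|) ν := (hi.sub (integrable_const 1)).abs
  refine lt_of_le_of_ne (integral_nonneg fun x => abs_nonneg _) fun h => hnc 1 ?_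
  have h1 := (integral_eq_zero_iff_of_nonneg (fun x => abs_nonneg _) hi').1 h.symm
  have h2 : (id : ℝ → ℝ) =ᵐ[ν] fun _ => 1 := by
    filter_upwards [h1] with x hx
    simp only [Pi.zero_apply, abs_eq_zero] at hx
    simp only [id]
    linarith
  have h3 : ν.map id = ν.map (fun _ => (1 : ℝ)) := Measure.map_congr h2
  rw [Measure.map_id, Measure.map_const] at h3
  simpa using h3

omit [IsProbabilityMeasure ν] in
theorem integrable_pathProduct (hm2 : Integrable (fun x : ℝ => x ^ 2) ν)
    (hW : IsRealization ν μ W) : ∀ v, Integrable (pathProduct W v) μ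
  | [] => integrable_const _
  | a :: v => by
    have h := (indep_pathProduct hW v {a}).comp (φ := id) (ψ := fun x => x + 1) measurable_id
      (by fun_prop)
    have h' : IndepFun (pathProduct W v) (W (a :: v)) μ := by
      convert h using 1
      · rfl
      · ext z
        simp
    exact h'.integrable_mul (integrable_pathProduct hm2 hW v)
      ((memLp_W hm2 hW a v).integrable (by norm_num))

omit [IsProbabilityMeasure ν] [IsProbabilityMeasure μ] in
theorem integral_abs_mul (hW : IsRealization ν μ W) (v : List ℕ) (B : Finset ℕ) {g : ℝ → ℝ}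
    (hg : Measurable g) :
    ∫ z, |pathProduct W v z * g (∑ n ∈ B, (W (n :: v) z - 1))| ∂μ =
      (∫ z, |pathProduct W v z| ∂μ) * ∫ z, |g (∑ n ∈ B, (W (n :: v) z - 1))| ∂μ := by
  have h := (indep_pathProduct hW v B).comp (φ := fun x => |x|) (ψ := fun x => |g x|)
    (by fun_prop) (by fun_prop)
  have hm : Measurable (fun z => ∑ n ∈ B, (W (n :: v) z - 1)) :=
    Finset.measurable_sum _ fun n _ => (hW.1 _).sub measurable_const
  have := h.integral_mul_eq_mul_integral
    ((continuous_abs.measurable.comp (measurable_pathProduct hW v)).aestronglyMeasurable)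
    ((continuous_abs.measurable.comp (hg.comp hm)).aestronglyMeasurable)
  simp only [abs_mul]
  exact this

theorem integral_abs_pathProduct (hpos : ν (Set.Ioi 0) = 1) (hmean : ∫ x, x ∂ν = 1)
    (hW : IsRealization ν μ W) : ∀ v, ∫ z, |pathProduct W v z| ∂μ = 1
  | [] => by simp [pathProduct]
  | a :: v => by
    have h := integral_abs_mul hW v {a} (g := fun x => x + 1) (by fun_prop)
    simp only [Finset.sum_singleton, sub_add_cancel] at h
    simp only [pathProduct]
    rw [h, integral_abs_pathProduct hpos hmean hW v,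
      integral_comp_W hW a v (g := fun x => |x|) (by fun_prop), integral_abs_id hpos hmean, mul_one]

theorem prod_main (hpos : ν (Set.Ioi 0) = 1) (hnc : ∀ c : ℝ, ν ≠ Measure.dirac c)
    (hmean : ∫ x, x ∂ν = 1) (hm2 : Integrable (fun x : ℝ => x ^ 2) ν)
    (hW : IsRealization ν μ W) :
    ∃ (p : List ℕ → productSpan μ W) (θ K : ℝ), 0 < θ ∧ (∀ v, ‖p v‖ = 1) ∧
      (∀ n v, ‖p (n :: v) - p v‖ = θ) ∧
      ∀ v (B : Finset ℕ), ‖∑ n ∈ B, (p (n :: v) - p v)‖ ≤ K * Real.sqrt B.card := by
  have hint := integrable_pathProduct hm2 hW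
  have habs := integral_abs_pathProduct hpos hmean hW
  let p : List ℕ → productSpan μ W := fun v => ⟨(hint v).toL1 _,
    Submodule.le_topologicalClosure _ (Submodule.subset_span ⟨v, (hint v).coeFn_toL1⟩)⟩
  have hsum : ∀ v (B : Finset ℕ), ‖∑ n ∈ B, (p (n :: v) - p v)‖ =
      ∫ z, |∑ n ∈ B, (W (n :: v) z - 1)| ∂μ := by
    intro v B
    have h := integral_abs_mul hW v B (g := id) measurable_id
    rw [habs, one_mul] at h
    simp only [id] at h
    rw [← h, Submodule.coe_norm, L1.norm_eq_integral_norm]
    apply integral_congr_ae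
    rw [Submodule.coe_sum]
    have h1 : ∀ᵐ z ∂μ, ∀ n : ℕ, ((p (n :: v) - p v : productSpan μ W) : Lp ℝ 1 μ) z =
        pathProduct W (n :: v) z - pathProduct W v z := by
      rw [ae_all_iff]
      intro n
      filter_upwards [Lp.coeFn_sub ((hint (n :: v)).toL1 _) ((hint v).toL1 _),
        (hint (n :: v)).coeFn_toL1, (hint v).coeFn_toL1] with z h1 h2 h3
      rw [← h2, ← h3]
      exact h1
    filter_upwards [h1, Lp.coeFn_finsetSum B
      (fun n => ((p (n :: v) - p v : productSpan μ W) : Lp ℝ 1 μ))] with z h1 h2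
    rw [h2, Finset.sum_apply, Real.norm_eq_abs, Finset.mul_sum]
    congr 1
    refine Finset.sum_congr rfl fun n _ => ?_
    rw [h1]
    simp only [pathProduct]
    ring
  refine ⟨p, ∫ x, |x - 1| ∂ν, Real.sqrt (∫ x, (x - 1) ^ 2 ∂ν), theta_pos hnc hm2, ?_, ?_, ?_⟩
  · intro v
    rw [Submodule.coe_norm, ← habs v]
    exact L1.norm_of_fun_eq_integral_norm (hint v)
  · intro n v
    have := hsum v {n}
    simp only [Finset.sum_singleton] at this
    rw [this]
    exact integral_comp_W hW n v (g := fun x => |x - 1|) (by fun_prop)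
  · intro v B
    rw [hsum]
    have hL : ∀ n, MemLp (fun z => W (n :: v) z - 1) 2 μ := fun n =>
      (memLp_W hm2 hW n v).sub (memLp_const 1)
    have h0 : ∀ n, ∫ z, (W (n :: v) z - 1) ∂μ = 0 := by
      intro n
      rw [integral_sub ((memLp_W hm2 hW n v).integrable (by norm_num)) (integrable_const _),
        integral_comp_W hW n v (g := fun x => x) (by fun_prop), hmean]
      simp
    have hv : ∀ n, variance (fun z => W (n :: v) z - 1) μ = ∫ x, (x - 1) ^ 2 ∂ν := by
      intro n
      rw [variance_eq_sub (hL n), h0, ← integral_comp_W hW n v (g := fun x => (x - 1) ^ 2)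
        (by fun_prop)]
      simp
    have hs : variance (∑ n ∈ B, fun z => W (n :: v) z - 1) μ = B.card * ∫ x, (x - 1) ^ 2 ∂ν := by
      rw [IndepFun.variance_sum (fun n _ => hL n)]
      · simp [hv]
      · intro i _ j _ hij
        exact (hW.2.1.indepFun (i := i :: v) (j := j :: v) (by simpa using hij)).comp
          (φ := fun x => x - 1) (ψ := fun x => x - 1) (by fun_prop) (by fun_prop)
    have h1 := integral_abs_le_sqrt (μ := μ) (Z := ∑ n ∈ B, fun z => W (n :: v) z - 1)
      (memLp_finsetSum' _ fun n _ => hL n) (by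
        simp only [Finset.sum_apply]
        rw [integral_finsetSum _ fun n _ => (hL n).integrable (by norm_num)]
        simp [h0])
    simp only [Finset.sum_apply] at h1
    rw [hs, mul_comm, Real.sqrt_mul (integral_nonneg fun x => sq_nonneg _)] at h1
    exact h1

end Main

end Crest.Agent.AUC
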